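import Mathlib

/-!
# Row 53, part 3: a saturated antichain, built by transfinite recursion of length continuum
-/

set_option autoImplicit false
open Set Cardinal

namespace Crest.Agent.R53

/-- Transfinite construction: at stage `p` one object is added if a good one exists. -/
theorem exists_rec_family {P α : Type} (Good : P → Set α → α → Prop) :
    ∃ (𝓐 : Set α) (stage : P → Set α), (∀ p, stage p ⊆ 𝓐) ∧ (∀ p, #(stage p) < #P) ∧
      (∀ p, (∃ B, Good p (stage p) B) → ∃ B ∈ 𝓐, Good p (stage p) B) ∧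
      (∀ A ∈ 𝓐, ∃ p, Good p (stage p) A) ∧
      (∀ A ∈ 𝓐, ∀ B ∈ 𝓐, A = B ∨ (∃ p, Good p (stage p) B ∧ A ∈ stage p) ∨
        (∃ p, Good p (stage p) A ∧ B ∈ stage p)) := by
  classical
  obtain ⟨lo, wf, hord⟩ := Cardinal.exists_ord_eq_type_lt P
  let G : P → Set α → Option α := fun p s => if h : ∃ B, Good p s B then some h.choose else none
  let F : P → Option α := (wellFounded_lt (α := P)).fix
    fun p ih => G p {a | ∃ q, ∃ h : q < p, ih q h = some a}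
  have hF : ∀ p, F p = G p {a | ∃ q, ∃ _ : q < p, F q = some a} := fun p =>
    (wellFounded_lt (α := P)).fix_eq _ p
  let stage : P → Set α := fun p => {a | ∃ q, ∃ _ : q < p, F q = some a}
  have hgood : ∀ p a, F p = some a → Good p (stage p) a := by
    intro p a h
    rw [hF] at h
    simp only [G] at h
    split_ifs at h with hex
    obtain rfl := Option.some.inj h
    exact hex.choose_spec
  refine ⟨{a | ∃ p, F p = some a}, stage, ?_, ?_, ?_, ?_, ?_⟩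
  · rintro p a ⟨q, -, h⟩
    exact ⟨q, h⟩
  · intro p
    refine lt_of_le_of_lt ?_ (Cardinal.mk_Iio_lt p hord)
    have hch : ∀ a : stage p, ∃ q : Iio p, F q = some a.1 := by
      rintro ⟨a, q, hq, h⟩
      exact ⟨⟨q, hq⟩, h⟩
    choose f hf using hch
    refine Cardinal.mk_le_of_injective (f := f) fun a b hab => ?_
    have h1 := hf a
    rw [hab, hf b] at h1
    exact Subtype.ext (Option.some.inj h1).symm
  · intro p hex
    have : F p = some hex.choose := by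
      rw [hF]
      simp only [G]
      exact dif_pos hex
    exact ⟨_, ⟨p, this⟩, hex.choose_spec⟩
  · rintro A ⟨p, h⟩
    exact ⟨p, hgood p A h⟩
  · rintro A ⟨p, hp⟩ B ⟨q, hq⟩
    rcases lt_trichotomy p q with h | rfl | h
    · exact Or.inr (Or.inl ⟨q, hgood q B hq, p, h, hp⟩)
    · left
      rw [hp] at hq
      exact Option.some.inj hq
    · exact Or.inr (Or.inr ⟨p, hgood p A hp, q, h, hq⟩)

/-- The data on one cell: a null ideal `Z`, a maximal ideal `small`, a rank on small sets and an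
independent family `R` of small sets. -/
structure Cell (γ : Type) where
  Z : Set γ → Prop
  small : Set γ → Prop
  ρ : Set γ → Ordinal.{0}
  R : (ℕ → Bool) → Set γ
  Z_mono : ∀ {a b}, a ⊆ b → Z b → Z a
  Z_union : ∀ {a b}, Z a → Z b → Z (a ∪ b)
  Z_finite : ∀ {a}, a.Finite → Z a
  small_mono : ∀ {a b}, a ⊆ b → small b → small a
  small_union : ∀ {a b}, small a → small b → small (a ∪ b)
  small_or : ∀ a, small a ∨ small aᶜ
  not_small_univ : ¬ small Set.univ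
  small_of_Z : ∀ {a}, Z a → small a
  small_R : ∀ x, small (R x)
  ρ_mono : ∀ {a b}, small b → Z (a \ b) → ρ a ≤ ρ b
  ρ_R : ∀ {b} (x), small b → ρ (b ∪ R x) ≤ ρ b
  ρ_union : ∀ {a b}, small a → small b → ρ (a ∪ b) ≤ max (ρ a) (ρ b)
  ρ_unb : ∀ {Y b}, ¬ small Y → small b → ∃ z, z ⊆ Y ∧ small z ∧ ρ b < ρ z
  R1 : ∀ {A}, ¬ Z A → {x | Z (A \ R x)}.Finite
  R2 : ∀ {A}, ¬ Z A → {x | Z (A ∩ R x)}.Finite

/-- inner slice -/
def Lf {γ : Type} (S : Set (Bool × γ)) : Set γ := {y | (false, y) ∈ S}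

/-- outer slice -/
def Rt {γ : Type} (S : Set (Bool × γ)) : Set γ := {y | (true, y) ∈ S}

/-- the set with given slices -/
def mk2 {γ : Type} (a b : Set γ) : Set (Bool × γ) := {p | if p.1 then p.2 ∈ b else p.2 ∈ a}

@[simp] theorem Lf_mk2 {γ : Type} (a b : Set γ) : Lf (mk2 a b) = a := by
  ext y; simp [Lf, mk2]

@[simp] theorem Rt_mk2 {γ : Type} (a b : Set γ) : Rt (mk2 a b) = b := by
  ext y; simp [Rt, mk2]

theorem subset_iff_slices {γ : Type} {S T : Set (Bool × γ)} :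
    S ⊆ T ↔ Lf S ⊆ Lf T ∧ Rt S ⊆ Rt T := by
  constructor
  · intro h
    exact ⟨fun y hy => h hy, fun y hy => h hy⟩
  · rintro ⟨h1, h2⟩ ⟨b, y⟩ hy
    cases b
    · exact h1 hy
    · exact h2 hy

theorem Lf_mono {γ : Type} {S T : Set (Bool × γ)} (h : S ⊆ T) : Lf S ⊆ Lf T :=
  fun _ hy => h hy

theorem Rt_mono {γ : Type} {S T : Set (Bool × γ)} (h : S ⊆ T) : Rt S ⊆ Rt T :=
  fun _ hy => h hy

namespace Cell
variable {γ : Type} (C : Cell γ)

def Z2 (S : Set (Bool × γ)) : Prop := C.Z (Lf S) ∧ C.Z (Rt S)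

def W (S : Set (Bool × γ)) : Prop :=
  C.small (Lf S) ∧ C.small (Rt S)ᶜ ∧ C.ρ (Rt S)ᶜ < C.ρ (Lf S)

def RR (x : ℕ → Bool) : Set (Bool × γ) := {p | p.2 ∈ C.R x}

variable {C}

theorem Z2_mono {S T : Set (Bool × γ)} (h : S ⊆ T) (hT : C.Z2 T) : C.Z2 S :=
  ⟨C.Z_mono (Lf_mono h) hT.1, C.Z_mono (Rt_mono h) hT.2⟩

theorem Z2_union {S T : Set (Bool × γ)} (hS : C.Z2 S) (hT : C.Z2 T) : C.Z2 (S ∪ T) :=
  ⟨C.Z_union hS.1 hT.1, C.Z_union hS.2 hT.2⟩

theorem Z2_finite {S : Set (Bool × γ)} (hS : S.Finite) : C.Z2 S :=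
  ⟨C.Z_finite (hS.preimage (f := fun y => (false, y)) fun _ _ _ _ h => by simpa using h),
    C.Z_finite (hS.preimage (f := fun y => (true, y)) fun _ _ _ _ h => by simpa using h)⟩

theorem le_of_subset {S T : Set (Bool × γ)} (h : S ⊆ T) : C.Z2 (S \ T) := by
  rw [sdiff_eq_empty.2 h]
  exact Z2_finite finite_empty

theorem le_trans' {S T U : Set (Bool × γ)} (h1 : C.Z2 (S \ T)) (h2 : C.Z2 (T \ U)) :
    C.Z2 (S \ U) :=
  Z2_mono (by intro y; simp only [mem_sdiff, mem_union]; tauto) (Z2_union h1 h2)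

theorem small_of_le {a b : Set γ} (h : C.Z (a \ b)) (hb : C.small b) : C.small a :=
  C.small_mono (by intro y; simp only [mem_sdiff, mem_union]; tauto)
    (C.small_union (C.small_of_Z h) hb)

theorem ρ_mono' {a b : Set γ} (h : a ⊆ b) (hb : C.small b) : C.ρ a ≤ C.ρ b :=
  C.ρ_mono hb (by rw [sdiff_eq_empty.2 h]; exact C.Z_finite finite_empty)

theorem not_small_compl {a : Set γ} (h : C.small a) : ¬ C.small aᶜ := fun h' =>
  C.not_small_univ (by simpa using C.small_union h h')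

theorem W_mono {A S : Set (Bool × γ)} (hA : C.W A) (h : C.Z2 (A \ S)) (hS : C.small (Lf S)) :
    C.W S := by
  have h2 : C.Z ((Rt S)ᶜ \ (Rt A)ᶜ) := by
    rw [compl_sdiff_compl]; exact h.2
  exact ⟨hS, small_of_le h2 hA.2.1,
    ((C.ρ_mono hA.2.1 h2).trans_lt hA.2.2).trans_le (C.ρ_mono hS h.1)⟩

theorem RR1 {A : Set (Bool × γ)} (h : ¬ C.Z2 A) : {x | C.Z2 (A \ C.RR x)}.Finite := by
  by_cases h1 : C.Z (Lf A)
  · exact (C.R1 (A := Rt A) fun h2 => h ⟨h1, h2⟩).subset fun x hx => hx.2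
  · exact (C.R1 h1).subset fun x hx => hx.1

theorem RR2 {A : Set (Bool × γ)} (h : ¬ C.Z2 A) : {x | C.Z2 (A ∩ C.RR x)}.Finite := by
  by_cases h1 : C.Z (Lf A)
  · exact (C.R2 (A := Rt A) fun h2 => h ⟨h1, h2⟩).subset fun x hx => hx.2
  · exact (C.R2 h1).subset fun x hx => hx.1

variable (C) in
/-- `B` is incomparable with every member of `𝓐`. -/
def Inc (𝓐 : Set (Set (Bool × γ))) (B : Set (Bool × γ)) : Prop :=
  ∀ A ∈ 𝓐, ¬ C.Z2 (A \ B) ∧ ¬ C.Z2 (B \ A)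

theorem split {𝓐 : Set (Set (Bool × γ))} (hc : #𝓐 < 𝔠) {I X : Set (Bool × γ)}
    (hI : ∀ A ∈ 𝓐, ¬ C.Z2 (A \ I)) (hX : ∀ A ∈ 𝓐, ¬ C.Z2 (X \ A)) :
    ∃ x, C.Inc 𝓐 (I ∪ (X ∩ C.RR x)) ∧ C.Inc 𝓐 (I ∪ (X \ C.RR x)) := by
  let bad : Set (Bool × γ) → Set (ℕ → Bool) := fun A =>
    ({x | C.Z2 ((A \ I) \ C.RR x)} ∪ {x | C.Z2 ((A \ I) ∩ C.RR x)}) ∪
      ({x | C.Z2 ((X \ A) \ C.RR x)} ∪ {x | C.Z2 ((X \ A) ∩ C.RR x)})
  have hbad : ∀ A ∈ 𝓐, (bad A).Finite := fun A hA =>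
    ((RR1 (hI A hA)).union (RR2 (hI A hA))).union ((RR1 (hX A hA)).union (RR2 (hX A hA)))
  have hlt : #(⋃ A ∈ 𝓐, bad A) < 𝔠 := by
    refine (Cardinal.mk_biUnion_le bad 𝓐).trans_lt
      (Cardinal.mul_lt_of_lt aleph0_le_continuum hc (lt_of_le_of_lt ?_ aleph0_lt_continuum))
    exact ciSup_le' fun A => (hbad A.1 A.2).lt_aleph0.le
  have hne : (⋃ A ∈ 𝓐, bad A) ≠ Set.univ := by
    intro h
    rw [h, mk_univ] at hlt
    simp at hlt
  obtain ⟨x, hx⟩ := (ne_univ_iff_exists_notMem _).1 hne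
  simp only [mem_iUnion, not_exists] at hx
  refine ⟨x, fun A hA => ⟨fun h => hx A hA ?_, fun h => hx A hA ?_⟩,
    fun A hA => ⟨fun h => hx A hA ?_, fun h => hx A hA ?_⟩⟩
  · exact Or.inl (Or.inl (Z2_mono
      (by intro y; simp only [mem_sdiff, mem_union, mem_inter_iff]; tauto) h))
  · exact Or.inr (Or.inr (Z2_mono
      (by intro y; simp only [mem_sdiff, mem_union, mem_inter_iff]; tauto) h))
  · exact Or.inl (Or.inr (Z2_mono
      (by intro y; simp only [mem_sdiff, mem_union, mem_inter_iff]; tauto) h))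
  · exact Or.inr (Or.inl (Z2_mono
      (by intro y; simp only [mem_sdiff, mem_union, mem_inter_iff]; tauto) h))

/-- The leg on which the outer slice is constant and the top is in `W`. -/
theorem step_top {𝓐 : Set (Set (Bool × γ))} (hc : #𝓐 < 𝔠) {I X : Set (Bool × γ)} (hIX : I ⊆ X)
    (hR : Rt I = Rt X) (hW : C.W X)
    (hI : ∀ A ∈ 𝓐, ¬ C.Z2 (A \ I)) (hX : ∀ A ∈ 𝓐, ¬ C.Z2 (X \ A)) :
    ∃ B, C.W B ∧ I ⊆ B ∧ B ⊆ X ∧ C.Inc 𝓐 B := by
  obtain ⟨x, h1, h2⟩ := split hc hI hX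
  have s1 : I ∪ (X ∩ C.RR x) ⊆ X := union_subset hIX inter_subset_left
  have s2 : I ∪ (X \ C.RR x) ⊆ X := union_subset hIX sdiff_subset
  have r1 : Rt (I ∪ (X ∩ C.RR x)) = Rt X :=
    (Rt_mono s1).antisymm (hR ▸ Rt_mono subset_union_left)
  have r2 : Rt (I ∪ (X \ C.RR x)) = Rt X :=
    (Rt_mono s2).antisymm (hR ▸ Rt_mono subset_union_left)
  have m1 := C.small_mono (Lf_mono s1) hW.1
  have m2 := C.small_mono (Lf_mono s2) hW.1
  have hu : Lf X ⊆ Lf (I ∪ (X ∩ C.RR x)) ∪ Lf (I ∪ (X \ C.RR x)) := by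
    intro y hy
    by_cases h : (false, y) ∈ C.RR x
    · exact Or.inl (Or.inr ⟨hy, h⟩)
    · exact Or.inr (Or.inr ⟨hy, h⟩)
  have hlt := hW.2.2.trans_le ((ρ_mono' hu (C.small_union m1 m2)).trans (C.ρ_union m1 m2))
  rcases lt_max_iff.1 hlt with h | h
  · exact ⟨_, ⟨m1, r1 ▸ hW.2.1, r1 ▸ h⟩, subset_union_left, s1, h1⟩
  · exact ⟨_, ⟨m2, r2 ▸ hW.2.1, r2 ▸ h⟩, subset_union_left, s2, h2⟩

variable (C) in
/-- `𝓐` is an antichain for inclusion modulo `Z2`. -/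
def Anti (𝓐 : Set (Set (Bool × γ))) : Prop :=
  ∀ A ∈ 𝓐, ∀ A' ∈ 𝓐, C.Z2 (A \ A') → A = A'

theorem step {𝓐 : Set (Set (Bool × γ))} (hc : #𝓐 < 𝔠) (hanti : C.Anti 𝓐)
    (hW : ∀ A ∈ 𝓐, C.W A) {I X : Set (Bool × γ)} (hIX : I ⊆ X)
    (hIs : C.small (Lf I)) (hXl : C.small (Rt X)ᶜ)
    (hI : ∀ A ∈ 𝓐, ¬ C.Z2 (A \ I)) (hX : ∀ A ∈ 𝓐, ¬ C.Z2 (X \ A))
    (hmid : ∀ A ∈ 𝓐, C.Z2 (I \ A) → ¬ C.Z2 (A \ X)) (hWX : C.small (Lf X) → C.W X) :
    ∃ B, C.W B ∧ I ⊆ B ∧ B ⊆ X ∧ C.Inc 𝓐 B := by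
  -- no set between `I` and `X` has a member of `𝓐` both below and above it
  have hboth : ∀ D, I ⊆ D → D ⊆ X → ∀ A ∈ 𝓐, C.Z2 (A \ D) → ∀ A' ∈ 𝓐, ¬ C.Z2 (D \ A') := by
    intro D h1 h2 A hA hAD A' hA' hDA'
    obtain rfl := hanti A hA A' hA' (le_trans' hAD hDA')
    exact hmid A hA (le_trans' (le_of_subset h1) hDA') (le_trans' hAD (le_of_subset h2))
  set D := mk2 (Lf I) (Rt X) with hD
  have hID : I ⊆ D := subset_iff_slices.2 ⟨by simp [hD], by simpa [hD] using Rt_mono hIX⟩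
  have hDX : D ⊆ X := subset_iff_slices.2 ⟨by simpa [hD] using Lf_mono hIX, by simp [hD]⟩
  have hLD : Lf D = Lf I := Lf_mk2 _ _
  have hRD : Rt D = Rt X := Rt_mk2 _ _
  by_cases h1 : ∃ A ∈ 𝓐, C.Z2 (A \ D)
  · obtain ⟨A, hA, hAD⟩ := h1
    have hWD : C.W D := W_mono (hW A hA) hAD (hLD ▸ hIs)
    obtain ⟨x, -, h2⟩ := split hc hI (hboth D hID hDX A hA hAD)
    have s2 : I ∪ (D \ C.RR x) ⊆ D := union_subset hID sdiff_subset
    have l2 : Lf (I ∪ (D \ C.RR x)) = Lf D :=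
      (Lf_mono s2).antisymm (hLD.subset.trans (Lf_mono subset_union_left))
    have r2 : (Rt (I ∪ (D \ C.RR x)))ᶜ ⊆ (Rt D)ᶜ ∪ C.R x := by
      intro y hy
      by_contra hcon
      simp only [mem_union, mem_compl_iff, not_or, not_not] at hcon
      exact hy (Or.inr ⟨hcon.1, hcon.2⟩)
    have sm : C.small ((Rt D)ᶜ ∪ C.R x) := C.small_union hWD.2.1 (C.small_R x)
    refine ⟨_, ⟨l2 ▸ hWD.1, C.small_mono r2 sm, ?_⟩, subset_union_left, s2.trans hDX, h2⟩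
    rw [l2]
    exact ((ρ_mono' r2 sm).trans (C.ρ_R x hWD.2.1)).trans_lt hWD.2.2
  push Not at h1
  by_cases h2 : C.small (Lf X)
  · obtain ⟨B, b1, b2, b3, b4⟩ := step_top hc hDX hRD (hWX h2) h1 hX
    exact ⟨B, b1, hID.trans b2, b3, b4⟩
  obtain ⟨z, hz, hzs, hzρ⟩ := C.ρ_unb h2 hXl
  set D0 := mk2 (Lf I ∪ z) (Rt X) with hD0
  have hL0 : Lf D0 = Lf I ∪ z := Lf_mk2 _ _
  have hR0 : Rt D0 = Rt X := Rt_mk2 _ _
  have hDD0 : D ⊆ D0 := subset_iff_slices.2 ⟨by rw [hLD, hL0]; exact subset_union_left,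
    by rw [hRD, hR0]⟩
  have hD0X : D0 ⊆ X := subset_iff_slices.2
    ⟨by rw [hL0]; exact union_subset (Lf_mono hIX) hz, by rw [hR0]⟩
  have hs0 : C.small (Lf I ∪ z) := C.small_union hIs hzs
  have hW0 : C.W D0 := ⟨hL0 ▸ hs0, hR0 ▸ hXl, by
    rw [hL0, hR0]; exact hzρ.trans_le (ρ_mono' subset_union_right hs0)⟩
  by_cases h3 : ∃ A' ∈ 𝓐, C.Z2 (D0 \ A')
  · obtain ⟨A', hA', hDA'⟩ := h3
    obtain ⟨x, h4, -⟩ := split hc (I := D0)
      (fun A hA h => hboth D0 (hID.trans hDD0) hD0X A hA h A' hA' hDA') hX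
    refine ⟨_, W_mono hW0 (le_of_subset subset_union_left) ?_,
      (hID.trans hDD0).trans subset_union_left, union_subset hD0X inter_subset_left, h4⟩
    refine C.small_mono ?_ (C.small_union hW0.1 (C.small_R x))
    rintro y (hy | hy)
    · exact Or.inl hy
    · exact Or.inr hy.2
  · push Not at h3
    obtain ⟨B, b1, b2, b3, b4⟩ := step_top hc hDD0 (hRD.trans hR0.symm) hW0 h1 h3
    exact ⟨B, b1, hID.trans b2, b3.trans hD0X, b4⟩

/-- The saturated antichain. -/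
theorem exists_antichain [Countable γ] (C : Cell γ) :
    ∃ 𝓐 : Set (Set (Bool × γ)), C.Anti 𝓐 ∧ (∀ A ∈ 𝓐, C.W A) ∧
      ∀ I X, I ⊆ X → C.small (Lf I) → C.small (Rt X)ᶜ →
        (∃ A ∈ 𝓐, C.Z2 (A \ I)) ∨ (∃ A ∈ 𝓐, C.Z2 (X \ A)) ∨
        (∃ A ∈ 𝓐, C.Z2 (I \ A) ∧ C.Z2 (A \ X)) ∨ (C.small (Lf X) ∧ ¬ C.W X) := by
  obtain ⟨𝓐, stage, h1, h2, h3, h4, h5⟩ := exists_rec_family
    (P := Set (Bool × γ) × Set (Bool × γ)) (α := Set (Bool × γ))
    fun p 𝓑 B => C.W B ∧ p.1 ⊆ B ∧ B ⊆ p.2 ∧ C.Inc 𝓑 B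
  have hcard : #(Set (Bool × γ) × Set (Bool × γ)) ≤ 𝔠 := by
    have : #(Set (Bool × γ)) ≤ 𝔠 := by
      rw [mk_set, ← two_power_aleph0]
      exact power_le_power_left two_ne_zero mk_le_aleph0
    rw [mk_prod, lift_id, ← continuum_mul_self]
    exact mul_le_mul' this this
  have hanti : C.Anti 𝓐 := by
    intro A hA A' hA' hle
    rcases h5 A hA A' hA' with h | ⟨p, hp, h⟩ | ⟨p, hp, h⟩
    · exact h
    · exact absurd hle (hp.2.2.2 A h).1
    · exact absurd hle (hp.2.2.2 A' h).2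
  have hW : ∀ A ∈ 𝓐, C.W A := fun A hA => (h4 A hA).choose_spec.1
  refine ⟨𝓐, hanti, hW, fun I X hIX hI hX => ?_⟩
  by_contra hcon
  simp only [not_or, not_exists, not_and, not_not] at hcon
  obtain ⟨c1, c2, c3, c4⟩ := hcon
  have hs := h1 (I, X)
  obtain ⟨B, hB, b1, b2, b3, -⟩ := h3 (I, X) (step ((h2 (I, X)).trans_le hcard)
    (fun A hA A' hA' => hanti A (hs hA) A' (hs hA')) (fun A hA => hW A (hs hA)) hIX hI hX
    (fun A hA => c1 A (hs hA)) (fun A hA => c2 A (hs hA)) (fun A hA => c3 A (hs hA)) c4)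
  exact c3 B hB (le_of_subset b2) (le_of_subset b3)

end Cell

end Crest.Agent.R53
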