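import Mathlib

/-!
# Row 53, part 5: an ordinal rank on an ideal that has no largest element modulo a subideal
-/

set_option autoImplicit false
open Set

namespace Crest.Agent.R53

/-- The ideal generated by `J` and the family `𝓕`. -/
inductive Gen {γ : Type} (J : Set γ → Prop) (𝓕 : Set (Set γ)) : Set γ → Prop
  | base (a : Set γ) : a ∈ 𝓕 → Gen J 𝓕 a
  | down (a b : Set γ) : Gen J 𝓕 b → J (a \ b) → Gen J 𝓕 a
  | union (a b : Set γ) : Gen J 𝓕 a → Gen J 𝓕 b → Gen J 𝓕 (a ∪ b)

theorem Gen.trans' {γ : Type} {J : Set γ → Prop} {𝓕 𝓖 : Set (Set γ)}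
    (h : ∀ c ∈ 𝓕, Gen J 𝓖 c) {a : Set γ} (ha : Gen J 𝓕 a) : Gen J 𝓖 a := by
  induction ha with
  | base a ha => exact h a ha
  | down a b _ hab ih => exact Gen.down a b ih hab
  | union a b _ _ ih1 ih2 => exact Gen.union a b ih1 ih2

theorem Gen.mono {γ : Type} {J : Set γ → Prop} {𝓕 𝓖 : Set (Set γ)} (h : 𝓕 ⊆ 𝓖) {a : Set γ}
    (ha : Gen J 𝓕 a) : Gen J 𝓖 a :=
  ha.trans' fun c hc => Gen.base c (h hc)

theorem exists_rank {γ : Type} (J small : Set γ → Prop) (J_empty : J ∅)
    (J_mono : ∀ a b, a ⊆ b → J b → J a) (J_union : ∀ a b, J a → J b → J (a ∪ b))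
    (small_empty : small ∅) (small_union : ∀ a b, small a → small b → small (a ∪ b))
    (notop : ∀ x, small x → ∃ a, small a ∧ ¬ J (a \ x)) :
    ∃ ρ : Set γ → Ordinal.{0}, (∀ a b, small b → J (a \ b) → ρ a ≤ ρ b) ∧
      (∀ a b, small a → small b → ρ (a ∪ b) ≤ max (ρ a) (ρ b)) ∧
      ∀ b, small b → ∃ a, small a ∧ ρ b < ρ a := by
  classical
  let rk : Set γ → Ordinal.{0} := fun c => Ordinal.typein (@WellOrderingRel (Set γ)) c
  have rk_inj : Function.Injective rk := (Ordinal.typein (@WellOrderingRel (Set γ))).injective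
  let S : Ordinal.{0} → Set (Set γ) := fun o => {c | small c ∧ rk c < o}
  have S_mono : ∀ o o', o ≤ o' → S o ⊆ S o' := fun o o' h c hc => ⟨hc.1, hc.2.trans_le h⟩
  let Q : Ordinal.{0} → Prop := fun o => ∃ x, small x ∧ ∀ a, small a → Gen J (insert x (S o)) a
  have hQ : ∃ o, Q o := ⟨Ordinal.type (@WellOrderingRel (Set γ)), ∅, small_empty, fun a ha =>
    Gen.base a (Or.inr ⟨ha, Ordinal.typein_lt_type _ a⟩)⟩
  obtain ⟨o0, ⟨x, hx, hgen⟩, hmin⟩ : ∃ o0, Q o0 ∧ ∀ o, o < o0 → ¬ Q o :=
    ⟨wellFounded_lt.min {o | Q o} hQ, wellFounded_lt.min_mem {o | Q o} hQ,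
      fun o ho hq => wellFounded_lt.not_lt_min {o | Q o} hq ho⟩
  have sub_J : ∀ a b : Set γ, a ⊆ b → J (a \ b) := fun a b h => by
    rw [sdiff_eq_empty.2 h]; exact J_empty
  -- `o0` is a limit ordinal
  have hlim : Order.IsSuccLimit o0 := by
    rcases Ordinal.zero_or_succ_or_isSuccLimit o0 with h | ⟨o, h⟩ | h
    · exfalso
      obtain ⟨a, ha, hna⟩ := notop x hx
      have : ∀ a, Gen J (insert x (S o0)) a → J (a \ x) := by
        intro a ha
        induction ha with
        | base a ha =>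
          rcases ha with rfl | ha
          · exact sub_J _ _ Subset.rfl
          · have := ha.2
            rw [h] at this
            exact absurd this (not_lt_zero)
        | down a b _ hab ih =>
          exact J_mono _ _ (by intro y; simp only [mem_sdiff, mem_union]; tauto)
            (J_union _ _ hab ih)
        | union a b _ _ ih1 ih2 =>
          rw [union_sdiff_distrib]
          exact J_union _ _ ih1 ih2
      exact hna (this a (hgen a ha))
    · exfalso
      subst h
      have hc : ∃ c, small c ∧ ∀ d, small d → rk d = o → d ⊆ c := by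
        by_cases hex : ∃ c, small c ∧ rk c = o
        · obtain ⟨c, hc, hco⟩ := hex
          exact ⟨c, hc, fun d _ hd => (rk_inj (hd.trans hco.symm)).subset⟩
        · exact ⟨∅, small_empty, fun d hd hdo => absurd ⟨d, hd, hdo⟩ hex⟩
      obtain ⟨c, hc, hcd⟩ := hc
      refine hmin o (Order.lt_succ o) ⟨x ∪ c, small_union _ _ hx hc, fun a ha =>
        (hgen a ha).trans' ?_⟩
      have hb : Gen J (insert (x ∪ c) (S o)) (x ∪ c) := Gen.base _ (mem_insert _ _)
      rintro d (rfl | hd)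
      · exact Gen.down _ _ hb (sub_J _ _ subset_union_left)
      · rcases (Order.lt_succ_iff.1 hd.2).lt_or_eq with h | h
        · exact Gen.base _ (Or.inr ⟨hd.1, h⟩)
        · exact Gen.down _ _ hb (sub_J _ _ ((hcd d hd.1 h).trans subset_union_right))
    · exact h
  have hbelow : ∀ a, Gen J (insert x (S o0)) a → ∃ o, o < o0 ∧ Gen J (insert x (S o)) a := by
    intro a ha
    induction ha with
    | base a ha =>
      rcases ha with rfl | ha
      · exact ⟨0, hlim.bot_lt, Gen.base _ (mem_insert _ _)⟩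
      · exact ⟨Order.succ (rk a), hlim.succ_lt ha.2, Gen.base _ (Or.inr ⟨ha.1, Order.lt_succ _⟩)⟩
    | down a b _ hab ih =>
      obtain ⟨o, ho, h⟩ := ih
      exact ⟨o, ho, Gen.down a b h hab⟩
    | union a b _ _ ih1 ih2 =>
      obtain ⟨o1, ho1, h1⟩ := ih1
      obtain ⟨o2, ho2, h2⟩ := ih2
      exact ⟨max o1 o2, max_lt ho1 ho2, Gen.union a b
        (h1.mono (insert_subset_insert (S_mono _ _ (le_max_left _ _))))
        (h2.mono (insert_subset_insert (S_mono _ _ (le_max_right _ _))))⟩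
  let ρ : Set γ → Ordinal.{0} := fun a => sInf {o | Gen J (insert x (S o)) a}
  have ρ_mem : ∀ a, small a → Gen J (insert x (S (ρ a))) a := fun a ha =>
    csInf_mem (s := {o | Gen J (insert x (S o)) a}) ⟨o0, hgen a ha⟩
  have ρ_le : ∀ a o, Gen J (insert x (S o)) a → ρ a ≤ o := fun a o h => csInf_le' h
  refine ⟨ρ, fun a b hb hab => ρ_le _ _ (Gen.down a b (ρ_mem b hb) hab),
    fun a b ha hb => ρ_le _ _ (Gen.union a b
      ((ρ_mem a ha).mono (insert_subset_insert (S_mono _ _ (le_max_left _ _))))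
      ((ρ_mem b hb).mono (insert_subset_insert (S_mono _ _ (le_max_right _ _))))),
    fun b hb => ?_⟩
  obtain ⟨o, ho, h⟩ := hbelow b (hgen b hb)
  have hlt : ρ b < o0 := (ρ_le b o h).trans_lt ho
  by_contra hcon
  push Not at hcon
  exact hmin _ hlt ⟨x, hx, fun a ha =>
    (ρ_mem a ha).mono (insert_subset_insert (S_mono _ _ (hcon a ha)))⟩

end Crest.Agent.R53
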