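import Crest.Agent.R53.Fine2
import Crest.Agent.R53.Antichain
import Crest.Agent.R53.Rank

/-!
# Row 53, part 6: the concrete cell
-/

set_option autoImplicit false
open Set Filter

namespace Crest.Agent.R53

abbrev Fn (m : ℕ) : Type := (Fin m → Bool) → Bool

abbrev Gam : Type := Σ m : ℕ, Fn m × Fin (m + 1)

def blkG : Gam → ℕ := Sigma.fst

def gG (m : ℕ) : ℕ := 2 ^ (2 ^ m) * (m + 1)

def res (m : ℕ) (x : ℕ → Bool) : Fin m → Bool := fun i => x i

def cyl (T : Finset (ℕ → Bool)) (σ : Bool) : Set Gam := {p | ∀ x ∈ T, p.2.1 (res p.1 x) = σ}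

def RG (x : ℕ → Bool) : Set Gam := {p | p.2.1 (res p.1 x) = true}

open Classical in
noncomputable def fibS (a : Set Gam) (m : ℕ) (f : Fn m) : Finset (Fin (m + 1)) :=
  Finset.univ.filter fun i => (⟨m, (f, i)⟩ : Gam) ∈ a

theorem blkG_eq (a : Set Gam) (m : ℕ) :
    a ∩ blkG ⁻¹' {m} = Sigma.mk m '' {q : Fn m × Fin (m + 1) | (⟨m, q⟩ : Gam) ∈ a} := by
  ext ⟨m', q⟩
  simp only [mem_inter_iff, mem_preimage, blkG, mem_singleton_iff, mem_image, mem_ofPred_eq]
  constructor
  · rintro ⟨h, rfl⟩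
    exact ⟨q, h, rfl⟩
  · rintro ⟨q', h, h'⟩
    obtain ⟨rfl, h2⟩ := Sigma.mk.inj_iff.1 h'
    obtain rfl := eq_of_heq h2
    exact ⟨h, rfl⟩

theorem hfG (m : ℕ) : (blkG ⁻¹' {m}).Finite := by
  have := blkG_eq univ m
  rw [univ_inter] at this
  rw [this]
  exact (toFinite _).image _

theorem hgG : Tendsto gG atTop atTop := by
  refine tendsto_atTop_mono (fun m => ?_) tendsto_id
  have : 1 ≤ 2 ^ (2 ^ m) := Nat.one_le_two_pow
  unfold gG
  simp only [id]
  nlinarith

theorem cnt_eq_sum (a : Set Gam) (m : ℕ) : cnt blkG a m = ∑ f : Fn m, (fibS a m f).card := by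
  classical
  unfold cnt
  rw [blkG_eq, ncard_image_of_injective _ sigma_mk_injective]
  have : {q : Fn m × Fin (m + 1) | (⟨m, q⟩ : Gam) ∈ a} =
      ↑(Finset.univ.filter fun q : Fn m × Fin (m + 1) => (⟨m, q⟩ : Gam) ∈ a) := by
    ext q; simp
  rw [this, ncard_coe_finset, Finset.card_filter, Fintype.sum_prod_type]
  refine Finset.sum_congr rfl fun f _ => ?_
  unfold fibS
  rw [Finset.card_filter]

theorem fibS_inter_cyl (a : Set Gam) (T : Finset (ℕ → Bool)) (σ : Bool) (m : ℕ) (f : Fn m) :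
    (fibS (a ∩ cyl T σ) m f).card =
      if ∀ x ∈ T, f (res m x) = σ then (fibS a m f).card else 0 := by
  split_ifs with h
  · congr 1
    ext i
    simp only [fibS, Finset.mem_filter, Finset.mem_univ, true_and, mem_inter_iff,
      and_iff_left_iff_imp]
    exact fun _ => h
  · rw [Finset.card_eq_zero]
    ext i
    simp only [fibS, Finset.mem_filter, Finset.mem_univ, true_and, mem_inter_iff,
      Finset.notMem_empty, iff_false, not_and]
    exact fun _ => h

theorem count_fun {D : Type} [Fintype D] [DecidableEq D] (T : Finset D) (σ : Bool) :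
    (Finset.univ.filter fun f : D → Bool => ∀ d ∈ T, f d = σ).card * 2 ^ T.card =
      2 ^ Fintype.card D := by
  have h1 : (Finset.univ.filter fun f : D → Bool => ∀ d ∈ T, f d = σ) =
      Fintype.piFinset fun d => if d ∈ T then {σ} else Finset.univ := by
    ext f
    simp only [Finset.mem_filter, Finset.mem_univ, true_and, Fintype.mem_piFinset]
    refine forall_congr' fun d => ?_
    split_ifs with h <;> simp [h]
  have h2 : 2 ^ T.card = ∏ d : D, if d ∈ T then 2 else 1 := by
    rw [Finset.prod_ite_mem, Finset.univ_inter, Finset.prod_const]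
  rw [h1, Fintype.card_piFinset, h2, ← Finset.prod_mul_distrib, ← Finset.card_univ,
    ← Finset.prod_const]
  refine Finset.prod_congr rfl fun d _ => ?_
  split_ifs <;> simp

theorem res_inj (T : Finset (ℕ → Bool)) : ∀ᶠ m in atTop, InjOn (res m) (T : Set (ℕ → Bool)) := by
  have : ∀ᶠ m in atTop, ∀ x ∈ T, ∀ y ∈ T, res m x = res m y → x = y := by
    rw [Finset.eventually_all]
    intro x _
    rw [Finset.eventually_all]
    intro y _
    by_cases h : x = y
    · exact Eventually.of_forall fun _ _ => h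
    · obtain ⟨n, hn⟩ := Function.ne_iff.1 h
      filter_upwards [eventually_gt_atTop n] with m hm hxy
      exact absurd (congrFun hxy ⟨n, hm⟩) hn
  exact this.mono fun m hm x hx y hy => hm x hx y hy

theorem cnt_cyl (T : Finset (ℕ → Bool)) (σ : Bool) :
    ∀ᶠ m in atTop, cnt blkG (cyl T σ) m * 2 ^ T.card = gG m := by
  classical
  filter_upwards [res_inj T] with m hm
  have h1 := count_fun (T.image (res m)) σ
  rw [Finset.card_image_of_injOn hm] at h1
  simp only [Finset.forall_mem_image, Fintype.card_pi, Fintype.card_bool, Finset.prod_const,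
    Finset.card_univ, Fintype.card_fin] at h1
  rw [← univ_inter (cyl T σ), cnt_eq_sum]
  simp only [fibS_inter_cyl]
  have h2 : ∀ f : Fn m, (fibS univ m f).card = m + 1 := by
    intro f; simp [fibS]
  simp only [h2]
  rw [← Finset.sum_filter, Finset.sum_const, smul_eq_mul, gG, ← h1]
  ring

theorem cyl_anti {T T' : Finset (ℕ → Bool)} (h : T ⊆ T') (σ : Bool) : cyl T' σ ⊆ cyl T σ :=
  fun _ hp x hx => hp x (h hx)

theorem Z_of_infinite {A : Set Gam} {σ : Bool}
    (h : {x | Z blkG gG (A \ cyl {x} σ)}.Infinite) : Z blkG gG A := by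
  classical
  have hT : ∀ T : Finset (ℕ → Bool), (∀ x ∈ T, Z blkG gG (A \ cyl {x} σ)) →
      Z blkG gG (A \ cyl T σ) := by
    intro T
    induction T using Finset.induction_on with
    | empty =>
      intro _
      refine Z_mono hfG ?_ Z_empty
      intro p hp
      exact hp.2 (by simp [cyl])
    | insert x T _ ih =>
      intro hx
      refine Z_mono hfG ?_ (Z_union (hx x (Finset.mem_insert_self _ _))
        (ih fun y hy => hx y (Finset.mem_insert_of_mem hy)))
      intro p hp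
      simp only [Set.mem_sdiff, mem_union, cyl, mem_ofPred_eq, Finset.mem_singleton, forall_eq,
        Finset.forall_mem_insert] at hp ⊢
      tauto
  intro j
  obtain ⟨T, hTs, hTc⟩ := h.exists_subset_card_eq (2 * j + 2)
  filter_upwards [hT T (fun x hx => hTs hx) (2 * j + 1), cnt_cyl T σ] with m h1 h2
  have h3 : cnt blkG A m ≤ cnt blkG (A \ cyl T σ) m + cnt blkG (cyl T σ) m :=
    (cnt_mono hfG (subset_sdiff_union A _) m).trans (cnt_union_le _ _ m)
  have h4 : 2 * j + 2 ≤ 2 ^ T.card := by rw [hTc]; exact Nat.lt_two_pow_self.le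
  have h5 := Nat.mul_le_mul_left (cnt blkG (cyl T σ) m) h4
  have h6 := Nat.mul_le_mul_left (j + 1) h3
  nlinarith

def J0 (a : Set Gam) : Prop := ∃ T : Finset (ℕ → Bool), Z blkG gG (a ∩ cyl T false)

theorem J0_of_Z {a : Set Gam} (h : Z blkG gG a) : J0 a := ⟨∅, Z_mono hfG inter_subset_left h⟩

theorem J0_mono (a b : Set Gam) (h : a ⊆ b) (hb : J0 b) : J0 a := by
  obtain ⟨T, hT⟩ := hb
  exact ⟨T, Z_mono hfG (inter_subset_inter_left _ h) hT⟩

theorem J0_union (a b : Set Gam) (ha : J0 a) (hb : J0 b) : J0 (a ∪ b) := by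
  classical
  obtain ⟨T1, h1⟩ := ha
  obtain ⟨T2, h2⟩ := hb
  refine ⟨T1 ∪ T2, Z_mono hfG ?_ (Z_union h1 h2)⟩
  rintro p ⟨hp | hp, hc⟩
  · exact Or.inl ⟨hp, cyl_anti Finset.subset_union_left _ hc⟩
  · exact Or.inr ⟨hp, cyl_anti Finset.subset_union_right _ hc⟩

theorem J0_R (x : ℕ → Bool) : J0 (RG x) := by
  refine ⟨{x}, Z_mono hfG ?_ Z_empty⟩
  rintro p ⟨h1, h2⟩
  have h3 := h2 x (Finset.mem_singleton_self x)
  have h4 : p.2.1 (res p.1 x) = true := h1
  rw [h4] at h3
  exact absurd h3 (by simp)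

theorem not_J0_univ : ¬ J0 univ := by
  rintro ⟨T, hT⟩
  rw [univ_inter] at hT
  obtain ⟨m, h1, h2⟩ := ((hT (2 ^ T.card)).and (cnt_cyl T false)).exists
  have h3 : 0 < gG m := by unfold gG; positivity
  have h4 : cnt blkG (cyl T false) m = 0 := by nlinarith
  rw [h4] at h2
  omega

theorem J0_of_half {Y Y' : Set Gam}
    (h : ∀ m f, (fibS Y m f).card ≤ 2 * (fibS Y' m f).card + 1) (hY' : J0 Y') : J0 Y := by
  obtain ⟨T, hT⟩ := hY'
  refine ⟨T, fun j => ?_⟩
  filter_upwards [hT (4 * j + 3), eventually_ge_atTop (2 * j + 1)] with m h1 h2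
  have h3 : cnt blkG (Y ∩ cyl T false) m ≤ 2 * cnt blkG (Y' ∩ cyl T false) m + 2 ^ (2 ^ m) := by
    rw [cnt_eq_sum, cnt_eq_sum, Finset.mul_sum]
    have hc : 2 ^ (2 ^ m) = ∑ _f : Fn m, 1 := by simp
    rw [hc, ← Finset.sum_add_distrib]
    refine Finset.sum_le_sum fun f _ => ?_
    rw [fibS_inter_cyl, fibS_inter_cyl]
    split_ifs
    · exact h m f
    · omega
  have h4 : 2 ^ (2 ^ m) * (2 * j + 2) ≤ gG m := Nat.mul_le_mul_left _ (by omega)
  have h5 := Nat.mul_le_mul_left (j + 1) h3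
  nlinarith

theorem J0_atomless {Y : Set Gam} (hY : ¬ J0 Y) : ∃ Y1, Y1 ⊆ Y ∧ ¬ J0 Y1 ∧ ¬ J0 (Y \ Y1) := by
  classical
  have hex : ∀ m (f : Fn m), ∃ s ⊆ fibS Y m f, s.card = (fibS Y m f).card / 2 :=
    fun m f => Finset.exists_subset_card_eq (Nat.div_le_self _ _)
  choose s hs hsc using hex
  let Y1 : Set Gam := {p | p.2.2 ∈ s p.1 p.2.1}
  have e1 : ∀ m f, fibS Y1 m f = s m f := by
    intro m f; ext i; simp [fibS, Y1]
  have e2 : ∀ m f, fibS (Y \ Y1) m f = fibS Y m f \ s m f := by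
    intro m f; ext i; simp [fibS, Y1]
  refine ⟨Y1, ?_, fun h => hY (J0_of_half (fun m f => ?_) h),
    fun h => hY (J0_of_half (fun m f => ?_) h)⟩
  · rintro ⟨m, f, i⟩ hp
    have := hs m f hp
    simpa [fibS] using this
  · rw [e1, hsc]; omega
  · rw [e2, Finset.card_sdiff_of_subset (hs m f), hsc]; omega

/-- The concrete cell. -/
theorem exists_cell : ∃ C : Cell Gam, C.Z = Z blkG gG := by
  let F : Filter Gam :=
    { sets := {s | J0 sᶜ}
      univ_sets := by
        show J0 univᶜ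
        rw [compl_univ]; exact J0_of_Z Z_empty
      sets_of_superset := fun {s t} hs hst => J0_mono _ _ (compl_subset_compl.2 hst) hs
      inter_sets := fun {s t} hs ht => by
        show J0 (s ∩ t)ᶜ
        rw [compl_inter]; exact J0_union _ _ hs ht }
  have hF : F.NeBot := by
    rw [← Filter.forall_mem_nonempty_iff_neBot]
    intro s hs
    rw [nonempty_iff_ne_empty]
    rintro rfl
    have : J0 ∅ᶜ := hs
    rw [compl_empty] at this
    exact not_J0_univ this
  let 𝒰 := Ultrafilter.of F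
  let small : Set Gam → Prop := fun a => a ∉ 𝒰
  have small_J : ∀ a, J0 a → small a := by
    intro a ha
    have : aᶜ ∈ F := by
      show J0 aᶜᶜ
      rwa [compl_compl]
    exact Ultrafilter.compl_mem_iff_notMem.1 (Ultrafilter.of_le F this)
  have small_mono : ∀ a b, a ⊆ b → small b → small a := fun a b h hb ha =>
    hb (mem_of_superset ha h)
  have small_union : ∀ a b, small a → small b → small (a ∪ b) := fun a b ha hb h =>
    (Ultrafilter.union_mem_iff.1 h).elim ha hb
  have small_or : ∀ a, small a ∨ small aᶜ := fun a => by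
    by_cases h : a ∈ 𝒰
    · exact Or.inr (Ultrafilter.compl_notMem_iff.2 h)
    · exact Or.inl h
  have notop : ∀ x, small x → ∃ a, small a ∧ ¬ J0 (a \ x) := by
    intro x hx
    have h1 : ¬ J0 xᶜ := fun h => small_J _ h (Ultrafilter.compl_mem_iff_notMem.2 hx)
    obtain ⟨Y1, hY, h2, h3⟩ := J0_atomless h1
    rcases small_or Y1 with h | h
    · exact ⟨Y1, h, fun h' => h2 (J0_mono Y1 (Y1 \ x) (fun p hp => ⟨hp, hY hp⟩) h')⟩
    · exact ⟨Y1ᶜ, h, fun h' => h3 (J0_mono (xᶜ \ Y1) (Y1ᶜ \ x) (fun p hp => ⟨hp.2, hp.1⟩) h')⟩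
  obtain ⟨ρ, r1, r2, r3⟩ := exists_rank J0 small (J0_of_Z Z_empty) J0_mono J0_union
    (small_J _ (J0_of_Z Z_empty)) small_union notop
  have r0 : ∀ a b, a ⊆ b → small b → ρ a ≤ ρ b := fun a b h hb =>
    r1 a b hb (by rw [sdiff_eq_empty.2 h]; exact J0_of_Z Z_empty)
  refine ⟨{
    Z := Z blkG gG
    small := small
    ρ := ρ
    R := RG
    Z_mono := fun h hb => Z_mono hfG h hb
    Z_union := Z_union
    Z_finite := Z_finite
    small_mono := fun h hb => small_mono _ _ h hb
    small_union := fun ha hb => small_union _ _ ha hb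
    small_or := small_or
    not_small_univ := fun h => h univ_mem
    small_of_Z := fun h => small_J _ (J0_of_Z h)
    small_R := fun x => small_J _ (J0_R x)
    ρ_mono := fun hb h => r1 _ _ hb (J0_of_Z h)
    ρ_R := fun x hb => r1 _ _ hb (J0_mono _ _ (by
      intro y; simp only [Set.mem_sdiff, mem_union]; tauto) (J0_R x))
    ρ_union := fun ha hb => r2 _ _ ha hb
    ρ_unb := ?_
    R1 := ?_
    R2 := ?_ }, rfl⟩
  · intro Y b hY hb
    have hx : small Yᶜ := (small_or Y).resolve_left hY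
    have hbx := small_union _ _ hb hx
    obtain ⟨a, ha, hlt⟩ := r3 _ hbx
    have hz : small (a ∩ Y) := small_mono _ _ inter_subset_left ha
    refine ⟨a ∩ Y, inter_subset_right, hz, ?_⟩
    have h1 : ρ a ≤ max (ρ (a ∩ Y)) (ρ Yᶜ) :=
      (r0 _ _ (by intro y; simp only [mem_union, mem_inter_iff, mem_compl_iff]; tauto)
        (small_union _ _ hz hx)).trans (r2 _ _ hz hx)
    have h2 : ρ Yᶜ < ρ a := (r0 _ _ subset_union_right hbx).trans_lt hlt
    have h3 : ρ b < ρ a := (r0 _ _ subset_union_left hbx).trans_lt hlt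
    rcases le_max_iff.1 h1 with h | h
    · exact h3.trans_le h
    · exact absurd h2 (not_lt.2 h)
  · intro A hA
    by_contra hinf
    refine hA (Z_of_infinite (σ := true) (Set.Infinite.mono (fun x hx => ?_) hinf))
    refine Z_mono hfG (b := A \ RG x) (fun p hp => ⟨hp.1, fun h => hp.2 ?_⟩) hx
    simpa [cyl, RG] using h
  · intro A hA
    by_contra hinf
    refine hA (Z_of_infinite (σ := false) (Set.Infinite.mono (fun x hx => ?_) hinf))
    refine Z_mono hfG (b := A ∩ RG x) (fun p hp => ⟨hp.1, ?_⟩) hx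
    simpa [cyl, RG] using hp.2

end Crest.Agent.R53
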