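import Crest.Agent.R53.Uniform
import Crest.Agent.R53.Family

/-!
# Row 53, part 7: the two matroids on `ℕ` and the descent argument
-/

set_option autoImplicit false
open Set Filter

namespace Crest.Agent.R53

theorem cnt_image {β γ : Type} {blk : γ → ℕ} {blk' : β → ℕ} {f : γ → β}
    (hf : Function.Injective f) (hb : ∀ y, blk' (f y) = blk y) (a : Set γ) (m : ℕ) :
    cnt blk' (f '' a) m = cnt blk a m := by
  unfold cnt
  rw [← ncard_image_of_injective _ hf]
  congr 1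
  ext p
  simp only [mem_inter_iff, mem_image, mem_preimage, mem_singleton_iff]
  constructor
  · rintro ⟨⟨y, hy, rfl⟩, h⟩
    exact ⟨y, ⟨hy, (hb y).symm.trans h⟩, rfl⟩
  · rintro ⟨y, ⟨hy, h⟩, rfl⟩
    exact ⟨⟨y, hy, rfl⟩, (hb y).trans h⟩

theorem hf2 {γ : Type} {blk : γ → ℕ} (hf : ∀ m, (blk ⁻¹' {m}).Finite) (m : ℕ) :
    ((fun p : Bool × γ => blk p.2) ⁻¹' {m}).Finite :=
  ((toFinite (univ : Set Bool)).prod (hf m)).subset fun _ hp => ⟨mem_univ _, hp⟩

theorem Z2_iff {γ : Type} {blk : γ → ℕ} {g : ℕ → ℕ} (hf : ∀ m, (blk ⁻¹' {m}).Finite)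
    (S : Set (Bool × γ)) :
    Z (fun p : Bool × γ => blk p.2) g S ↔ Z blk g (Lf S) ∧ Z blk g (Rt S) := by
  have key : ∀ (b : Bool) (a : Set γ),
      Z (fun p : Bool × γ => blk p.2) g (Prod.mk b '' a) ↔ Z blk g a := by
    intro b a
    unfold Z
    simp only [cnt_image (blk := blk) (blk' := fun p : Bool × γ => blk p.2)
      (Prod.mk_right_injective b) (fun _ => rfl)]
  rw [← key false, ← key true]
  constructor
  · intro h
    refine ⟨Z_mono (hf2 hf) ?_ h, Z_mono (hf2 hf) ?_ h⟩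
    · rintro _ ⟨y, hy, rfl⟩; exact hy
    · rintro _ ⟨y, hy, rfl⟩; exact hy
  · rintro ⟨h1, h2⟩
    refine Z_mono (hf2 hf) ?_ (Z_union h1 h2)
    rintro ⟨b, y⟩ hp
    cases b
    · exact Or.inl ⟨y, hp, rfl⟩
    · exact Or.inr ⟨y, hp, rfl⟩

theorem exists_setup : Nonempty (Setup Gam) := by
  obtain ⟨C, hC⟩ := exists_cell
  obtain ⟨𝓐, h1, h2, h3⟩ := C.exists_antichain
  have hZ : Z (fun p : Bool × Gam => blkG p.2) gG = C.Z2 := by
    funext S
    rw [Z2_iff hfG, Cell.Z2, hC]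
  exact ⟨⟨C, hZ ▸ fine (hf2 hfG) hgG, 𝓐, h1, h2, h3⟩⟩

/-- The sum of copies of the uniform matroid, along a pairing `ε` of the cells. -/
theorem exists_sum {γ : Type} (U : Setup γ) (e : ℤ × γ ≃ ℕ) (ε : ℤ × Bool ≃ ℤ) :
    ∃ M : Matroid ℕ, M.E = univ ∧ M.dual = M ∧ ∀ T, M.Spanning T → ∀ n,
      U.C.small {y | e (ε (n, false), y) ∈ T} →
        U.C.small {y | e (ε (n, true), y) ∈ T}ᶜ ∧
          U.C.ρ {y | e (ε (n, true), y) ∈ T}ᶜ < U.C.ρ {y | e (ε (n, false), y) ∈ T} := by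
  obtain ⟨X, hE, hc, hX⟩ := U.exists_matroid
  let Φ : ℤ × (Bool × γ) ≃ ℕ :=
    (Equiv.prodAssoc ℤ Bool γ).symm.trans ((ε.prodCongr (Equiv.refl γ)).trans e)
  let M : Matroid ℕ := (Matroid.sum' fun _ : ℤ => X).mapEquiv Φ
  have hME : M.E = univ := by
    simp only [M, Matroid.mapEquiv_ground_eq, Matroid.sum'_ground_eq, hE]
    rw [eq_univ_iff_forall]
    intro k
    exact ⟨Φ.symm k, mem_iUnion.2 ⟨(Φ.symm k).1, (Φ.symm k).2, mem_univ _, rfl⟩, by simp⟩
  have hB : ∀ B, M.IsBase B ↔ ∀ n, X.IsBase {p | Φ (n, p) ∈ B} := by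
    intro B
    simp only [M, Matroid.mapEquiv_isBase_iff, Matroid.sum'_isBase_iff]
    refine forall_congr' fun n => ?_
    rw [Equiv.image_symm_eq_preimage]
    rfl
  have hcompl : ∀ B, M.IsBase B → M.IsBase Bᶜ := by
    intro B h
    rw [hB] at h ⊢
    exact fun n => hc _ (h n)
  refine ⟨M, hME, ?_, fun T hT n hs => ?_⟩
  · refine Matroid.ext_isBase rfl fun B _ => ?_
    rw [Matroid.dual_isBase_iff (by rw [hME]; exact subset_univ _), hME, ← compl_eq_univ_sdiff]
    exact ⟨fun h => by simpa using hcompl _ h, hcompl B⟩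
  · obtain ⟨B, hBb, hBT⟩ := hT.exists_isBase_subset
    exact hX _ {p | Φ (n, p) ∈ T} ((hB B).1 hBb n) (fun p hp => hBT hp) hs

/-- pairing of the cells -/
def eps : ℤ × Bool ≃ ℤ where
  toFun p := if 0 ≤ p.1 then (if p.2 then 2 * p.1 + 1 else 2 * p.1)
    else (if p.2 then 2 * p.1 else 2 * p.1 + 1)
  invFun k := (k / 2, if 0 ≤ k then decide (k % 2 = 1) else decide (k % 2 = 0))
  left_inv := by
    rintro ⟨n, b⟩
    cases b <;> by_cases h : 0 ≤ n <;> simp only [h, if_true, if_false, Bool.false_eq_true] <;>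
      refine Prod.ext (by simp only; omega) ?_ <;> simp only <;> split_ifs <;>
      first | omega | (simp only [decide_eq_false_iff_not, decide_eq_true_eq]; omega)
  right_inv := by
    intro k
    by_cases h : 0 ≤ k
    · have h2 : 0 ≤ k / 2 := by omega
      simp only [h, h2, if_true, decide_eq_true_eq]
      split_ifs <;> omega
    · have h2 : ¬ 0 ≤ k / 2 := by omega
      simp only [h, h2, if_false, decide_eq_true_eq]
      split_ifs <;> omega

theorem eps_false (n : ℤ) : eps (n, false) = if 0 ≤ n then 2 * n else 2 * n + 1 := by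
  simp [eps]

theorem eps_true (n : ℤ) : eps (n, true) = if 0 ≤ n then 2 * n + 1 else 2 * n := by
  simp [eps]

theorem eps_out (n : ℤ) : ∃ n', eps (n, true) = - eps (n', false) := by
  rw [eps_true]
  split_ifs with h
  · exact ⟨-n - 1, by rw [eps_false, if_neg (by omega)]; ring⟩
  · exact ⟨-n, by rw [eps_false, if_pos (by omega)]; ring⟩

theorem exists_pair : ∃ M₀ M₁ : Matroid ℕ, M₀.E = univ ∧ M₁.E = univ ∧ M₀.dual = M₀ ∧
    M₁.dual = M₁ ∧ ∀ T₀ T₁, M₀.Spanning T₀ → M₁.Spanning T₁ → ¬ Disjoint T₀ T₁ := by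
  obtain ⟨U⟩ := exists_setup
  have : Infinite Gam := Infinite.of_injective
    (fun m : ℕ => (⟨m, (fun _ => true, 0)⟩ : Gam)) fun a b h => congrArg Sigma.fst h
  obtain ⟨e⟩ : Nonempty (ℤ × Gam ≃ ℕ) := nonempty_equiv_of_countable
  obtain ⟨M₀, e0, d0, p0⟩ := exists_sum U e eps
  obtain ⟨M₁, e1, d1, p1⟩ := exists_sum U e (eps.trans (Equiv.neg ℤ))
  refine ⟨M₀, M₁, e0, e1, d0, d1, fun T₀ T₁ h0 h1 hd => ?_⟩
  let t₀ : ℤ → Set Gam := fun k => {y | e (k, y) ∈ T₀}
  let t₁ : ℤ → Set Gam := fun k => {y | e (k, y) ∈ T₁}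
  have d01 : ∀ k, t₀ k ⊆ (t₁ k)ᶜ := fun k y hy hy' => hd.notMem_of_mem_left hy hy'
  have d10 : ∀ k, t₁ k ⊆ (t₀ k)ᶜ := fun k y hy hy' => hd.notMem_of_mem_left hy' hy
  have q0 : ∀ n, U.C.small (t₀ (eps (n, false))) → U.C.small (t₀ (eps (n, true)))ᶜ ∧
      U.C.ρ (t₀ (eps (n, true)))ᶜ < U.C.ρ (t₀ (eps (n, false))) := p0 T₀ h0
  have q1 : ∀ n, U.C.small (t₁ (- eps (n, false))) → U.C.small (t₁ (- eps (n, true)))ᶜ ∧
      U.C.ρ (t₁ (- eps (n, true)))ᶜ < U.C.ρ (t₁ (- eps (n, false))) := p1 T₁ h1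
  have main : ∀ o : Ordinal.{0}, ∀ n,
      (U.C.small (t₀ (eps (n, false))) → U.C.ρ (t₀ (eps (n, false))) ≠ o) ∧
      (U.C.small (t₁ (- eps (n, false))) → U.C.ρ (t₁ (- eps (n, false))) ≠ o) := by
    intro o
    induction o using WellFoundedLT.induction with
    | ind o ih =>
      intro n
      constructor
      · rintro hs rfl
        obtain ⟨a1, a2⟩ := q0 n hs
        obtain ⟨n', hn'⟩ := eps_out n
        rw [hn'] at a1 a2
        exact (ih _ ((Cell.ρ_mono' (d10 _) a1).trans_lt a2) n').2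
          (U.C.small_mono (d10 _) a1) rfl
      · rintro hs rfl
        obtain ⟨a1, a2⟩ := q1 n hs
        obtain ⟨n', hn'⟩ := eps_out n
        rw [hn', neg_neg] at a1 a2
        exact (ih _ ((Cell.ρ_mono' (d01 _) a1).trans_lt a2) n').1
          (U.C.small_mono (d01 _) a1) rfl
  have z : eps (0, false) = 0 := by simp [eps_false]
  rcases U.C.small_or (t₀ 0) with h | h
  · exact (main _ 0).1 (by rwa [z]) rfl
  · exact (main _ 0).2 (by rw [z, neg_zero]; exact U.C.small_mono (d10 0) h) rfl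

theorem spanning_of_partition {M : Matroid ℕ} (hE : M.E = univ) (hd : M.dual = M)
    {P C S I : Set ℕ} (hPC : P ∪ C = univ) (hS : S ⊆ P) (hcl : (M.restrict P).closure S = P)
    (hI : (M.contract Cᶜ).Indep I) : M.Spanning (S ∪ (C \ I)) := by
  have h1 : P ⊆ M.closure S := by
    rw [Matroid.restrict_closure_eq M hS (by rw [hE]; exact subset_univ _)] at hcl
    exact hcl.symm.subset.trans inter_subset_left
  have h2 := hI.coindep.compl_spanning.closure_eq
  rw [Matroid.dual_contract, hd, Matroid.delete_closure_eq, Matroid.delete_ground, hE] at h2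
  have h3 : C ⊆ M.closure (C \ I) := by
    intro x hx
    have : x ∈ univ \ Cᶜ := ⟨mem_univ _, fun h => h hx⟩
    rw [← h2] at this
    refine M.closure_subset_closure ?_ this.1
    intro y hy
    exact ⟨not_not.1 hy.2, hy.1.2⟩
  rw [Matroid.spanning_iff_ground_subset_closure (by rw [hE]; exact subset_univ _), hE, ← hPC]
  exact union_subset (h1.trans (M.closure_subset_closure subset_union_left))
    (h3.trans (M.closure_subset_closure subset_union_right))

end Crest.Agent.R53
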