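import Mathlib

/-!
# Row 53, part 1: the density ideal `Z` and its fine structure

The ground set is cut into finite blocks (`blk`), `g m` is the scale of block `m`.
`Z a` says that `a` has density zero.  Inside a class of sets modulo `Z` we compare sets by the
weights `wt`, obtaining two predicates `Sp` (spanning) and `In` (independent) that behave like
the spanning and independent sets of a uniform matroid.
-/

set_option autoImplicit false
open Set Filter

namespace Crest.Agent.R53

/-- The abstract interface of the fine structure inside classes modulo an ideal `Z`. -/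
structure Fine {β : Type} (Z : Set β → Prop) where
  Sp : Set β → Set β → Prop
  In : Set β → Set β → Prop
  tot : ∀ A S, Sp A S ∨ In A S
  sp_mono : ∀ A S T, Z (A \ S) → Z (T \ A) → S ⊆ T → Sp A S → Sp A T
  in_mono : ∀ A S T, Z (A \ S) → Z (T \ A) → S ⊆ T → In A T → In A S
  ins : ∀ A S e, Z (A \ S) → Z (S \ A) → e ∉ S → (In A (insert e S) ↔ ¬ Sp A S)
  interp : ∀ A I X, I ⊆ X → Z (I \ A) → Z (A \ X) → (Z (A \ I) → In A I) →
    (Z (X \ A) → Sp A X) →
    ∃ B, I ⊆ B ∧ B ⊆ X ∧ Z (A \ B) ∧ Z (B \ A) ∧ Sp A B ∧ In A B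

section Defs
variable {β : Type} (blk : β → ℕ) (g : ℕ → ℕ)

noncomputable def cnt (a : Set β) (m : ℕ) : ℕ := (a ∩ blk ⁻¹' {m}).ncard

def Z (a : Set β) : Prop := ∀ j : ℕ, ∀ᶠ m in atTop, (j + 1) * cnt blk a m ≤ g m

def thr (j m : ℕ) : ℕ := if m < j then 0 else g m / (j + 1)

noncomputable def wt (a : Set β) (j : ℕ) : ℕ := ∑ᶠ m, (cnt blk a m - thr g j m)

noncomputable def phi (A S : Set β) (j : ℕ) : ℤ :=
  (wt blk g (S \ A) j : ℤ) - (wt blk g (A \ S) j : ℤ)

end Defs

section Basic
variable {β : Type} {blk : β → ℕ} {g : ℕ → ℕ}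

theorem cnt_mono (hf : ∀ m, (blk ⁻¹' {m}).Finite) {a b : Set β} (h : a ⊆ b) (m : ℕ) :
    cnt blk a m ≤ cnt blk b m :=
  ncard_le_ncard (inter_subset_inter_left _ h) ((hf m).subset inter_subset_right)

theorem cnt_union_le (a b : Set β) (m : ℕ) :
    cnt blk (a ∪ b) m ≤ cnt blk a m + cnt blk b m := by
  unfold cnt
  rw [union_inter_distrib_right]
  exact ncard_union_le _ _

theorem cnt_congr {a b : Set β} {m : ℕ} (h : ∀ e, blk e = m → (e ∈ a ↔ e ∈ b)) :
    cnt blk a m = cnt blk b m := by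
  unfold cnt
  congr 1
  ext e
  simp only [mem_inter_iff, mem_preimage, mem_singleton_iff]
  constructor
  · rintro ⟨h1, h2⟩; exact ⟨(h e h2).1 h1, h2⟩
  · rintro ⟨h1, h2⟩; exact ⟨(h e h2).2 h1, h2⟩

theorem cnt_insert (hf : ∀ m, (blk ⁻¹' {m}).Finite) {a : Set β} {e : β} (he : e ∉ a) (m : ℕ) :
    cnt blk (insert e a) m = cnt blk a m + if blk e = m then 1 else 0 := by
  split_ifs with h
  · unfold cnt
    rw [insert_inter_of_mem (by simpa using h), ncard_insert_of_notMem (fun h' => he h'.1)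
      ((hf m).subset inter_subset_right)]
  · rw [add_zero]
    refine cnt_congr fun e' he' => ?_
    simp only [mem_insert_iff, or_iff_right_iff_imp]
    rintro rfl
    exact absurd he' h

theorem Z_mono (hf : ∀ m, (blk ⁻¹' {m}).Finite) {a b : Set β} (h : a ⊆ b) (hb : Z blk g b) :
    Z blk g a := fun j =>
  (hb j).mono fun m hm => (Nat.mul_le_mul_left _ (cnt_mono hf h m)).trans hm

theorem Z_union {a b : Set β} (ha : Z blk g a) (hb : Z blk g b) : Z blk g (a ∪ b) := by
  intro j
  filter_upwards [ha (2 * j + 1), hb (2 * j + 1)] with m h1 h2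
  have := Nat.mul_le_mul_left (j + 1) (cnt_union_le (blk := blk) a b m)
  nlinarith

theorem Z_finite {a : Set β} (ha : a.Finite) : Z blk g a := by
  intro j
  obtain ⟨M, hM⟩ := (ha.image blk).bddAbove
  filter_upwards [eventually_gt_atTop M] with m hm
  have : cnt blk a m = 0 := by
    unfold cnt
    have : a ∩ blk ⁻¹' {m} = ∅ := by
      ext e
      simp only [mem_inter_iff, mem_preimage, mem_singleton_iff, mem_empty_iff_false, iff_false,
        not_and]
      intro he h
      have := hM (mem_image_of_mem blk he)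
      omega
    simp [this]
  simp [this]

theorem Z_empty : Z blk g (∅ : Set β) := Z_finite finite_empty

theorem Z_insert {a : Set β} (e : β) (ha : Z blk g a) : Z blk g (insert e a) := by
  rw [insert_eq]
  exact Z_union (Z_finite (finite_singleton e)) ha

theorem wt_eq (hf : ∀ m, (blk ⁻¹' {m}).Finite) {D : Set β} (hD : Z blk g D) (j : ℕ) :
    ∃ M, ∀ M', M ≤ M' → ∀ a, a ⊆ D →
      wt blk g a j = ∑ m ∈ Finset.range M', (cnt blk a m - thr g j m) := by
  obtain ⟨M, hM⟩ := eventually_atTop.1 (hD j)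
  refine ⟨max M j, fun M' hM' a ha => ?_⟩
  unfold wt
  refine finsum_eq_sum_of_support_subset _ fun m hm => ?_
  simp only [Finset.coe_range, mem_Iio]
  by_contra hlt
  have hm1 : M ≤ m := by omega
  have hm2 : ¬ m < j := by omega
  apply hm
  have h1 := hM m hm1
  have h2 := cnt_mono hf ha m
  have h3 : cnt blk D m ≤ g m / (j + 1) := by
    rw [Nat.le_div_iff_mul_le (by omega)]
    nlinarith
  simp only [thr, hm2, if_false]
  omega

theorem wt_mono (hf : ∀ m, (blk ⁻¹' {m}).Finite) {a b : Set β} (h : a ⊆ b) (hb : Z blk g b)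
    (j : ℕ) : wt blk g a j ≤ wt blk g b j := by
  obtain ⟨M, hM⟩ := wt_eq hf hb j
  rw [hM M le_rfl a h, hM M le_rfl b Subset.rfl]
  refine Finset.sum_le_sum fun m _ => ?_
  have := cnt_mono hf h m
  omega

theorem wt_insert_le (hf : ∀ m, (blk ⁻¹' {m}).Finite) {a : Set β} (ha : Z blk g a) (e : β)
    (j : ℕ) : wt blk g (insert e a) j ≤ wt blk g a j + 1 := by
  by_cases he : e ∈ a
  · rw [insert_eq_of_mem he]; omega
  obtain ⟨M, hM⟩ := wt_eq hf (Z_insert e ha) j
  rw [hM M le_rfl _ Subset.rfl, hM M le_rfl a (subset_insert _ _)]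
  calc ∑ m ∈ Finset.range M, (cnt blk (insert e a) m - thr g j m)
      ≤ ∑ m ∈ Finset.range M, ((cnt blk a m - thr g j m) + if blk e = m then 1 else 0) := by
        refine Finset.sum_le_sum fun m _ => ?_
        rw [cnt_insert hf he]
        omega
    _ ≤ _ := by
        rw [Finset.sum_add_distrib]
        have : ∑ m ∈ Finset.range M, (if blk e = m then 1 else 0) ≤ 1 := by
          rw [Finset.sum_ite_eq]; split_ifs <;> omega
        omega

theorem wt_insert_eq (hf : ∀ m, (blk ⁻¹' {m}).Finite) {a : Set β} (ha : Z blk g a) {e : β}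
    (he : e ∉ a) {j : ℕ} (hj : blk e < j) : wt blk g (insert e a) j = wt blk g a j + 1 := by
  obtain ⟨M, hM⟩ := wt_eq hf (Z_insert e ha) j
  rw [hM (max M j) (le_max_left _ _) _ Subset.rfl,
    hM (max M j) (le_max_left _ _) a (subset_insert _ _)]
  calc ∑ m ∈ Finset.range (max M j), (cnt blk (insert e a) m - thr g j m)
      = ∑ m ∈ Finset.range (max M j),
          ((cnt blk a m - thr g j m) + if blk e = m then 1 else 0) := by
        refine Finset.sum_congr rfl fun m _ => ?_
        rw [cnt_insert hf he]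
        split_ifs with h
        · subst h
          simp [thr, hj]
        · simp
    _ = _ := by
        rw [Finset.sum_add_distrib, Finset.sum_ite_eq, if_pos]
        simp only [Finset.mem_range]
        omega

theorem wt_local (hf : ∀ m, (blk ⁻¹' {m}).Finite) {D : Set β} (hD : Z blk g D) (j : ℕ) :
    ∃ M, ∀ a b, a ⊆ D → b ⊆ D → (∀ e, blk e < M → (e ∈ a ↔ e ∈ b)) →
      wt blk g a j = wt blk g b j := by
  obtain ⟨M, hM⟩ := wt_eq hf hD j
  refine ⟨M, fun a b ha hb hab => ?_⟩
  rw [hM M le_rfl a ha, hM M le_rfl b hb]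
  refine Finset.sum_congr rfl fun m hm => ?_
  rw [cnt_congr (a := a) (b := b) fun e he => hab e (by rw [he]; exact Finset.mem_range.1 hm)]

theorem le_wt (hf : ∀ m, (blk ⁻¹' {m}).Finite) {a : Set β} (ha : Z blk g a) (j m : ℕ) :
    cnt blk a m - thr g j m ≤ wt blk g a j := by
  obtain ⟨M, hM⟩ := wt_eq hf ha j
  rw [hM (max M (m + 1)) (le_max_left _ _) a Subset.rfl]
  refine Finset.single_le_sum (f := fun m => cnt blk a m - thr g j m)
    (fun _ _ => Nat.zero_le _) ?_
  simp only [Finset.mem_range]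
  omega

/-- Goodness: inside a set of positive upper density there are null sets of large weight. -/
theorem goodness (hf : ∀ m, (blk ⁻¹' {m}).Finite) (hg : Tendsto g atTop atTop) {Y : Set β}
    (hY : ¬ Z blk g Y) (η : ℕ → ℕ) :
    ∃ a, a ⊆ Y ∧ Z blk g a ∧ ∀ᶠ j in atTop, η j ≤ wt blk g a j := by
  unfold Z at hY
  push Not at hY
  obtain ⟨j0, hj0⟩ := hY
  have hP : ∀ j : ℕ, ∃ᶠ m in atTop, g m < (j0 + 1) * cnt blk Y m ∧ (j + 1) * η j ≤ g m :=
    fun j => hj0.and_eventually (hg.eventually (eventually_ge_atTop _))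
  obtain ⟨φ, hφ, hφP⟩ := extraction_forall_of_frequently hP
  have hex : ∀ j : ℕ, ∃ s : Set β, s ⊆ Y ∩ blk ⁻¹' {φ j} ∧
      s.ncard = min (cnt blk Y (φ j)) (2 * (g (φ j) / (j + 1))) :=
    fun j => exists_subset_card_eq (min_le_left _ _)
  choose s hs hsc using hex
  have hcnt : ∀ j, cnt blk (⋃ j, s j) (φ j) = (s j).ncard := by
    intro j
    unfold cnt
    congr 1
    ext e
    simp only [mem_inter_iff, mem_iUnion, mem_preimage, mem_singleton_iff]
    constructor
    · rintro ⟨⟨i, hi⟩, h⟩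
      have h2 : blk e = φ i := (hs i hi).2
      have : i = j := hφ.injective (h2.symm.trans h)
      exact this ▸ hi
    · intro h
      exact ⟨⟨j, h⟩, (hs j h).2⟩
  have hZ : Z blk g (⋃ j, s j) := by
    intro j
    filter_upwards [eventually_ge_atTop (φ (2 * j + 1))] with m hm
    by_cases hr : ∃ i, φ i = m
    · obtain ⟨i, rfl⟩ := hr
      have hi : 2 * j + 1 ≤ i := hφ.le_iff_le.1 hm
      rw [hcnt, hsc]
      have h1 : min (cnt blk Y (φ i)) (2 * (g (φ i) / (i + 1))) ≤ 2 * (g (φ i) / (i + 1)) :=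
        min_le_right _ _
      have h2 : (i + 1) * (g (φ i) / (i + 1)) ≤ g (φ i) := Nat.mul_div_le _ _
      have h3 : (2 * j + 2) * (g (φ i) / (i + 1)) ≤ (i + 1) * (g (φ i) / (i + 1)) :=
        Nat.mul_le_mul_right _ (by omega)
      have h4 := Nat.mul_le_mul_left (j + 1) h1
      nlinarith
    · have : cnt blk (⋃ j, s j) m = 0 := by
        unfold cnt
        have : (⋃ j, s j) ∩ blk ⁻¹' {m} = ∅ := by
          ext e
          simp only [mem_inter_iff, mem_iUnion, mem_preimage, mem_singleton_iff,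
            mem_empty_iff_false, iff_false, not_and, forall_exists_index]
          intro i hi h
          have h2 : blk e = φ i := (hs i hi).2
          exact hr ⟨i, h2.symm.trans h⟩
        simp [this]
      simp [this]
  refine ⟨⋃ j, s j, iUnion_subset fun j => (hs j).trans inter_subset_left, hZ, ?_⟩
  filter_upwards [eventually_ge_atTop (2 * j0 + 1)] with j hj
  refine le_trans ?_ (le_wt hf hZ j (φ j))
  have hle : ¬ φ j < j := not_lt.2 (hφ.id_le j)
  rw [hcnt, hsc]
  simp only [thr, hle, if_false]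
  obtain ⟨h1, h2⟩ := hφP j
  have h3 : η j ≤ g (φ j) / (j + 1) := by
    rw [Nat.le_div_iff_mul_le (by omega)]
    nlinarith
  have h4 : (j + 1) * (g (φ j) / (j + 1)) ≤ g (φ j) := Nat.mul_div_le _ _
  have h5 : (2 * j0 + 2) * (g (φ j) / (j + 1)) ≤ (j + 1) * (g (φ j) / (j + 1)) :=
    Nat.mul_le_mul_right _ (by omega)
  have h6 : 2 * (g (φ j) / (j + 1)) ≤ cnt blk Y (φ j) := by
    by_contra hlt
    push Not at hlt
    have := Nat.mul_le_mul_left (j0 + 1) hlt.le
    nlinarith
  rw [min_eq_right h6]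
  omega

end Basic

end Crest.Agent.R53
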