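import Crest.Agent.R53.Fine

/-!
# Row 53, part 2: interpolation inside a class, and the `Fine` structure
-/

set_option autoImplicit false
open Set Filter

namespace Crest.Agent.R53

section
variable {β : Type} {blk : β → ℕ} {g : ℕ → ℕ}

theorem phi_mono (hf : ∀ m, (blk ⁻¹' {m}).Finite) {A S T : Set β} (h1 : Z blk g (A \ S))
    (h2 : Z blk g (T \ A)) (h : S ⊆ T) (j : ℕ) : phi blk g A S j ≤ phi blk g A T j := by
  unfold phi
  have a1 := wt_mono hf (sdiff_subset_sdiff_left (t := A) h) h2 j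
  have a2 := wt_mono hf (sdiff_subset_sdiff_right (s := A) h) h1 j
  omega

theorem phi_insert_le (hf : ∀ m, (blk ⁻¹' {m}).Finite) {A S : Set β} (h1 : Z blk g (A \ S))
    (h2 : Z blk g (S \ A)) (e : β) (j : ℕ) :
    phi blk g A (insert e S) j ≤ phi blk g A S j + 1 := by
  by_cases heS : e ∈ S
  · rw [insert_eq_of_mem heS]; omega
  unfold phi
  by_cases he : e ∈ A
  · have e1 : insert e S \ A = S \ A := by
      ext x; simp only [Set.mem_sdiff, mem_insert_iff]; grind
    have e2 : A \ S = insert e (A \ insert e S) := by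
      ext x; simp only [Set.mem_sdiff, mem_insert_iff]; grind
    have hz : Z blk g (A \ insert e S) :=
      Z_mono hf (sdiff_subset_sdiff_right (subset_insert _ _)) h1
    have := wt_insert_le hf hz e j
    rw [← e2] at this
    rw [e1]
    omega
  · have e1 : insert e S \ A = insert e (S \ A) := by
      ext x; simp only [Set.mem_sdiff, mem_insert_iff]; grind
    have e2 : A \ insert e S = A \ S := by
      ext x; simp only [Set.mem_sdiff, mem_insert_iff]; grind
    have := wt_insert_le hf h2 e j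
    rw [e1, e2]
    omega

theorem phi_insert_eq (hf : ∀ m, (blk ⁻¹' {m}).Finite) {A S : Set β} (h1 : Z blk g (A \ S))
    (h2 : Z blk g (S \ A)) {e : β} (heS : e ∉ S) {j : ℕ} (hj : blk e < j) :
    phi blk g A (insert e S) j = phi blk g A S j + 1 := by
  unfold phi
  by_cases he : e ∈ A
  · have e1 : insert e S \ A = S \ A := by
      ext x; simp only [Set.mem_sdiff, mem_insert_iff]; grind
    have e2 : A \ S = insert e (A \ insert e S) := by
      ext x; simp only [Set.mem_sdiff, mem_insert_iff]; grind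
    have hz : Z blk g (A \ insert e S) :=
      Z_mono hf (sdiff_subset_sdiff_right (subset_insert _ _)) h1
    have := wt_insert_eq hf hz (e := e) (by simp) hj
    rw [← e2] at this
    rw [e1]
    omega
  · have e1 : insert e S \ A = insert e (S \ A) := by
      ext x; simp only [Set.mem_sdiff, mem_insert_iff]; grind
    have e2 : A \ insert e S = A \ S := by
      ext x; simp only [Set.mem_sdiff, mem_insert_iff]; grind
    have := wt_insert_eq hf h2 (e := e) (fun h => heS h.1) hj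
    rw [e1, e2]
    omega

theorem phi_local (hf : ∀ m, (blk ⁻¹' {m}).Finite) {A I X : Set β} (h1 : Z blk g (A \ I))
    (h2 : Z blk g (X \ A)) (j : ℕ) :
    ∃ M, ∀ S T, I ⊆ S → S ⊆ X → I ⊆ T → T ⊆ X → (∀ e, blk e < M → (e ∈ S ↔ e ∈ T)) →
      phi blk g A S j = phi blk g A T j := by
  obtain ⟨M1, hM1⟩ := wt_local hf h1 j
  obtain ⟨M2, hM2⟩ := wt_local hf h2 j
  refine ⟨max M1 M2, fun S T hIS hSX hIT hTX h => ?_⟩
  unfold phi
  rw [hM1 (A \ S) (A \ T) (sdiff_subset_sdiff_right hIS) (sdiff_subset_sdiff_right hIT)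
      fun e he => by simp only [Set.mem_sdiff, h e (by omega)],
    hM2 (S \ A) (T \ A) (sdiff_subset_sdiff_left hSX) (sdiff_subset_sdiff_left hTX)
      fun e he => by simp only [Set.mem_sdiff, h e (by omega)]]

theorem finite_blk_lt (hf : ∀ m, (blk ⁻¹' {m}).Finite) (M : ℕ) : {e | blk e < M}.Finite := by
  have : {e | blk e < M} = ⋃ m ∈ Iio M, blk ⁻¹' {m} := by
    ext e; simp
  rw [this]
  exact (finite_Iio M).biUnion fun m _ => hf m

theorem chain_finite {c : Set (Set β)} (hc : IsChain (· ⊆ ·) c) (hne : c.Nonempty)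
    {F : Set β} (hF : F.Finite) : ∃ s ∈ c, ∀ e ∈ F, e ∈ s → e ∈ ⋂₀ c := by
  induction F, hF using Set.Finite.induction_on with
  | empty => obtain ⟨s, hs⟩ := hne; exact ⟨s, hs, by simp⟩
  | @insert x F _ _ ih =>
    obtain ⟨s, hs, h⟩ := ih
    by_cases hx : x ∈ ⋂₀ c
    · refine ⟨s, hs, fun e he hes => ?_⟩
      rcases he with rfl | he
      · exact hx
      · exact h e he hes
    · simp only [mem_sInter, not_forall] at hx
      obtain ⟨t, ht, hxt⟩ := hx
      rcases hc.total hs ht with hst | hts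
      · refine ⟨s, hs, fun e he hes => ?_⟩
        rcases he with rfl | he
        · exact absurd (hst hes) hxt
        · exact h e he hes
      · refine ⟨t, ht, fun e he het => ?_⟩
        rcases he with rfl | he
        · exact absurd het hxt
        · exact h e he (hts het)

variable (blk g) in
def SpA (A S : Set β) : Prop := ∀ᶠ j in atTop, 0 ≤ phi blk g A S j

variable (blk g) in
def InA (A S : Set β) : Prop := ∃ᶠ j in atTop, phi blk g A S j ≤ 0

theorem InA_insert_iff (hf : ∀ m, (blk ⁻¹' {m}).Finite) {A S : Set β} (h1 : Z blk g (A \ S))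
    (h2 : Z blk g (S \ A)) {e : β} (he : e ∉ S) :
    InA blk g A (insert e S) ↔ ¬ SpA blk g A S := by
  unfold InA SpA
  rw [not_eventually]
  refine frequently_congr ?_
  filter_upwards [eventually_gt_atTop (blk e)] with j hj
  rw [phi_insert_eq hf h1 h2 he hj]
  omega

theorem interp_finite (hf : ∀ m, (blk ⁻¹' {m}).Finite) {A : Set β} {F : Set β} (hF : F.Finite) :
    ∀ I : Set β, Z blk g (A \ I) → Z blk g (I \ A) → InA blk g A I → SpA blk g A (I ∪ F) →
      ∃ B, I ⊆ B ∧ B ⊆ I ∪ F ∧ SpA blk g A B ∧ InA blk g A B := by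
  induction F, hF using Set.Finite.induction_on with
  | empty =>
    intro I _ _ hI hS
    rw [union_empty] at hS
    exact ⟨I, Subset.rfl, subset_union_left, hS, hI⟩
  | @insert x F _ _ ih =>
    intro I h1 h2 hI hS
    by_cases hsp : SpA blk g A I
    · exact ⟨I, Subset.rfl, subset_union_left, hsp, hI⟩
    have hI' : InA blk g A (insert x I) := by
      by_cases hx : x ∈ I
      · rwa [insert_eq_of_mem hx]
      · exact (InA_insert_iff hf h1 h2 hx).2 hsp
    have hz : Z blk g (insert x I \ A) :=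
      Z_mono hf (by intro y; simp only [Set.mem_sdiff, mem_insert_iff]; grind) (Z_insert x h2)
    obtain ⟨B, b1, b2, b3, b4⟩ := ih (insert x I)
      (Z_mono hf (sdiff_subset_sdiff_right (subset_insert _ _)) h1) hz hI'
      (by rwa [insert_union, ← union_insert])
    refine ⟨B, (subset_insert _ _).trans b1, ?_, b3, b4⟩
    rwa [insert_union, ← union_insert] at b2

theorem interp_class (hf : ∀ m, (blk ⁻¹' {m}).Finite) {A I X : Set β} (hIX : I ⊆ X)
    (h1 : Z blk g (A \ I)) (h2 : Z blk g (X \ A)) (hI : InA blk g A I) (hX : SpA blk g A X) :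
    ∃ B, I ⊆ B ∧ B ⊆ X ∧ SpA blk g A B ∧ InA blk g A B := by
  obtain ⟨n0, hn0⟩ := eventually_atTop.1 hX
  let 𝓢 : Set (Set β) := {S | I ⊆ S ∧ S ⊆ X ∧ ∀ n, n0 ≤ n → 0 ≤ phi blk g A S n}
  obtain ⟨B, -, hB⟩ := zorn_superset_nonempty 𝓢 (fun c hc hchain hne => by
    refine ⟨⋂₀ c, ⟨subset_sInter fun s hs => (hc hs).1, ?_, fun n hn => ?_⟩,
      fun s hs => sInter_subset_of_mem hs⟩
    · obtain ⟨s, hs⟩ := hne
      exact (sInter_subset_of_mem hs).trans (hc hs).2.1
    · obtain ⟨M, hM⟩ := phi_local hf h1 h2 n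
      obtain ⟨s, hs, hs'⟩ := chain_finite hchain hne (finite_blk_lt hf M)
      rw [hM (⋂₀ c) s (subset_sInter fun s hs => (hc hs).1)
        ((sInter_subset_of_mem hs).trans (hc hs).2.1) (hc hs).1 (hc hs).2.1
        fun e he => ⟨fun h => sInter_subset_of_mem hs h, hs' e he⟩]
      exact (hc hs).2.2 n hn) X ⟨hIX, Subset.rfl, hn0⟩
  obtain ⟨hIB, hBX, hBn⟩ := hB.prop
  have hBsp : SpA blk g A B := eventually_atTop.2 ⟨n0, hBn⟩
  by_cases hfin : (B \ I).Finite
  · obtain ⟨B', b1, b2, b3, b4⟩ := interp_finite hf hfin I h1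
      (Z_mono hf (sdiff_subset_sdiff_left hIX) h2) hI (by rwa [union_sdiff_cancel hIB])
    rw [union_sdiff_cancel hIB] at b2
    exact ⟨B', b1, b2.trans hBX, b3, b4⟩
  refine ⟨B, hIB, hBX, hBsp, ?_⟩
  unfold InA
  rw [frequently_atTop]
  intro N
  have hloc := fun j => phi_local hf h1 h2 j
  choose M hM using hloc
  obtain ⟨M0, hM0⟩ := ((finite_Iio N).image M).bddAbove
  have hex : ∃ e ∈ B \ I, ¬ blk e < M0 := by
    by_contra hcon
    push Not at hcon
    exact hfin ((finite_blk_lt hf M0).subset hcon)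
  obtain ⟨e, ⟨heB, heI⟩, he⟩ := hex
  have hI' : I ⊆ B \ {e} := fun x hx => ⟨hIB hx, fun h => heI (h ▸ hx)⟩
  have hX' : B \ {e} ⊆ X := sdiff_subset.trans hBX
  have hnot : B \ {e} ∉ 𝓢 := fun h => by
    have := hB.le_of_le h sdiff_subset
    exact (this heB).2 rfl
  have : ∃ n, n0 ≤ n ∧ phi blk g A (B \ {e}) n < 0 := by
    by_contra hcon
    push Not at hcon
    exact hnot ⟨hI', hX', hcon⟩
  obtain ⟨n, hn, hneg⟩ := this
  have hNn : N ≤ n := by
    by_contra hlt
    push Not at hlt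
    have hMn : M n ≤ M0 := hM0 (mem_image_of_mem M hlt)
    have := hM n (B \ {e}) B hI' hX' hIB hBX fun x hx => by
      simp only [Set.mem_sdiff, mem_singleton_iff, and_iff_left_iff_imp]
      rintro - rfl
      omega
    have := hBn n hn
    omega
  refine ⟨n, hNn, ?_⟩
  have := phi_insert_le hf (A := A) (S := B \ {e}) (Z_mono hf (sdiff_subset_sdiff_right hI') h1)
    (Z_mono hf (sdiff_subset_sdiff_left hX') h2) e n
  rw [insert_sdiff_singleton, insert_eq_of_mem heB] at this
  omega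

theorem interp_full (hf : ∀ m, (blk ⁻¹' {m}).Finite) (hg : Tendsto g atTop atTop)
    {A I X : Set β} (hIX : I ⊆ X) (h1 : Z blk g (I \ A)) (h2 : Z blk g (A \ X))
    (hI : Z blk g (A \ I) → InA blk g A I) (hX : Z blk g (X \ A) → SpA blk g A X) :
    ∃ B, I ⊆ B ∧ B ⊆ X ∧ Z blk g (A \ B) ∧ Z blk g (B \ A) ∧ SpA blk g A B ∧ InA blk g A B := by
  -- lower end
  have hlow : ∃ I', I ⊆ I' ∧ I' ⊆ X ∧ Z blk g (A \ I') ∧ Z blk g (I' \ A) ∧ InA blk g A I' := by
    by_cases hz : Z blk g (A \ I)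
    · exact ⟨I, Subset.rfl, hIX, hz, h1, hI hz⟩
    have hY : ¬ Z blk g ((A ∩ X) \ I) := fun h => hz
      (Z_mono hf (by intro y; simp only [Set.mem_sdiff, mem_union, mem_inter_iff]; grind)
        (Z_union h h2))
    obtain ⟨a, ha, haZ, hη⟩ := goodness hf hg hY (fun j => wt blk g (I \ A) j)
    have z1 : Z blk g (A \ (((A ∪ I) ∩ X) \ a)) :=
      Z_mono hf (by intro y; simp only [Set.mem_sdiff, mem_union, mem_inter_iff]; grind)
        (Z_union h2 haZ)
    have s2 : (((A ∪ I) ∩ X) \ a) \ A ⊆ I \ A := by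
      intro y; simp only [Set.mem_sdiff, mem_union, mem_inter_iff]; grind
    refine ⟨((A ∪ I) ∩ X) \ a, fun y hy => ⟨⟨Or.inr hy, hIX hy⟩, fun h => (ha h).2 hy⟩,
      fun y hy => hy.1.2, z1, Z_mono hf s2 h1, ?_⟩
    refine Eventually.frequently ?_
    filter_upwards [hη] with j hj
    unfold phi
    have a1 := wt_mono hf s2 h1 j
    have a2 := wt_mono hf (a := a) (b := A \ (((A ∪ I) ∩ X) \ a))
      (fun y hy => ⟨(ha hy).1.1, fun h => h.2 hy⟩) z1 j
    omega
  obtain ⟨I', i1, i2, i3, i4, i5⟩ := hlow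
  have hup : ∃ X', I' ⊆ X' ∧ X' ⊆ X ∧ Z blk g (X' \ A) ∧ SpA blk g A X' := by
    by_cases hz : Z blk g (X \ A)
    · exact ⟨X, i2, Subset.rfl, hz, hX hz⟩
    have hY : ¬ Z blk g (X \ (A ∪ I')) := fun h => hz
      (Z_mono hf (by intro y; simp only [Set.mem_sdiff, mem_union]; grind) (Z_union h i4))
    obtain ⟨a, ha, haZ, hη⟩ := goodness hf hg hY (fun j => wt blk g (A \ I') j)
    have z1 : Z blk g ((I' ∪ a) \ A) :=
      Z_mono hf (by intro y; simp only [Set.mem_sdiff, mem_union]; grind) (Z_union i4 haZ)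
    refine ⟨I' ∪ a, subset_union_left, union_subset i2 (ha.trans sdiff_subset), z1, ?_⟩
    filter_upwards [hη] with j hj
    unfold phi
    have a1 := wt_mono hf (a := A \ (I' ∪ a)) (sdiff_subset_sdiff_right subset_union_left) i3 j
    have a2 := wt_mono hf (a := a) (b := (I' ∪ a) \ A)
      (fun y hy => ⟨Or.inr hy, fun h => (ha hy).2 (Or.inl h)⟩) z1 j
    omega
  obtain ⟨X', x1, x2, x3, x4⟩ := hup
  obtain ⟨B, b1, b2, b3, b4⟩ := interp_class hf x1 i3 x3 i5 x4
  exact ⟨B, i1.trans b1, b2.trans x2, Z_mono hf (sdiff_subset_sdiff_right b1) i3,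
    Z_mono hf (sdiff_subset_sdiff_left b2) x3, b3, b4⟩

/-- The fine structure of the density ideal. -/
def fine (hf : ∀ m, (blk ⁻¹' {m}).Finite) (hg : Tendsto g atTop atTop) : Fine (Z blk g) where
  Sp := SpA blk g
  In := InA blk g
  tot A S := by
    by_cases h : SpA blk g A S
    · exact Or.inl h
    · right
      unfold SpA at h
      rw [not_eventually] at h
      exact h.mono fun j hj => by omega
  sp_mono A S T h1 h2 h hS := hS.mono fun j hj => hj.trans (phi_mono hf h1 h2 h j)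
  in_mono A S T h1 h2 h hT := hT.mono fun j hj => (phi_mono hf h1 h2 h j).trans hj
  ins A S e h1 h2 he := InA_insert_iff hf h1 h2 he
  interp A I X hIX h1 h2 hI hX := interp_full hf hg hIX h1 h2 hI hX

end

end Crest.Agent.R53
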