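import Crest.Agent.R53.Fine
import Crest.Agent.R53.Antichain

/-!
# Row 53, part 4: an identically self-dual uniform matroid on two cells
-/

set_option autoImplicit false
open Set

namespace Crest.Agent.R53

/-- A predicate `Ind` on sets with the properties below is the independence predicate of an
identically self-dual uniform matroid whose spanning sets are the complements of independent sets. -/
theorem exists_uniform {β : Type} (Ind : Set β → Prop) (h0 : Ind ∅)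
    (hmono : ∀ S T, S ⊆ T → Ind T → Ind S) (htot : ∀ S, Ind S ∨ Ind Sᶜ)
    (hins : ∀ S e, e ∉ S → (Ind (insert e S) ↔ ¬ Ind Sᶜ))
    (hint : ∀ I X, I ⊆ X → Ind I → Ind Xᶜ → ∃ B, I ⊆ B ∧ B ⊆ X ∧ Ind B ∧ Ind Bᶜ) :
    ∃ M : Matroid β, M.E = univ ∧ ∀ B, M.IsBase B ↔ Ind B ∧ Ind Bᶜ := by
  have hmax : ∀ B, Maximal Ind B ↔ Ind B ∧ Ind Bᶜ := by
    intro B
    constructor
    · intro h
      refine ⟨h.prop, ?_⟩
      by_contra hc
      have : B = univ := by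
        by_contra hne
        obtain ⟨e, he⟩ := (ne_univ_iff_exists_notMem _).1 hne
        exact he (h.le_of_ge ((hins B e he).2 hc) (subset_insert _ _) (mem_insert _ _))
      apply hc
      rw [this, compl_univ]
      exact h0
    · rintro ⟨h1, h2⟩
      refine ⟨h1, fun T hT hBT e he => ?_⟩
      by_contra heB
      exact (hins B e heB).1 (hmono _ _ (insert_subset he hBT) hT) h2
  let M : IndepMatroid β :=
    { E := univ
      Indep := Ind
      indep_empty := h0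
      indep_subset := fun I J hJ hIJ => hmono I J hIJ hJ
      indep_aug := by
        intro I B hI hnm hB
        have hc : ¬ Ind Iᶜ := fun h => hnm ((hmax I).2 ⟨hI, h⟩)
        have hnot : ¬ B ⊆ I := fun h =>
          hc (hmono _ _ (compl_subset_compl.2 h) ((hmax B).1 hB).2)
        obtain ⟨x, hxB, hxI⟩ := not_subset.1 hnot
        exact ⟨x, ⟨hxB, hxI⟩, (hins I x hxI).2 hc⟩
      indep_maximal := by
        intro X _ I hI hIX
        by_cases hX : Ind Xᶜ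
        · obtain ⟨B, b1, b2, b3, b4⟩ := hint I X hIX hI hX
          exact ⟨B, b1, ⟨b3, b2⟩, fun K hK hBK => ((hmax B).2 ⟨b3, b4⟩).le_of_ge hK.1 hBK⟩
        · exact ⟨X, hIX, ⟨(htot X).resolve_right hX, Subset.rfl⟩, fun K hK _ => hK.2⟩
      subset_ground := fun I _ => subset_univ I }
  exact ⟨M.matroid, rfl, hmax⟩

/-- All the data needed for the uniform matroid. -/
structure Setup (γ : Type) where
  C : Cell γ
  F : Fine C.Z2
  𝓐 : Set (Set (Bool × γ))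
  anti : C.Anti 𝓐
  hW : ∀ A ∈ 𝓐, C.W A
  sat : ∀ I X, I ⊆ X → C.small (Lf I) → C.small (Rt X)ᶜ →
    (∃ A ∈ 𝓐, C.Z2 (A \ I)) ∨ (∃ A ∈ 𝓐, C.Z2 (X \ A)) ∨
    (∃ A ∈ 𝓐, C.Z2 (I \ A) ∧ C.Z2 (A \ X)) ∨ (C.small (Lf X) ∧ ¬ C.W X)

namespace Setup
open Cell
variable {γ : Type} (U : Setup γ)

def SS (S : Set (Bool × γ)) : Prop := U.C.small (Lf S) ∧ U.C.small (Rt S)

def SL (S : Set (Bool × γ)) : Prop := U.C.small (Lf S) ∧ U.C.small (Rt S)ᶜ

def spn (S : Set (Bool × γ)) : Prop :=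
  ∃ A ∈ U.𝓐, U.C.Z2 (A \ S) ∧ (U.C.Z2 (S \ A) → U.F.Sp A S)

def ind (S : Set (Bool × γ)) : Prop :=
  ¬ U.C.W S ∨ ∃ A ∈ U.𝓐, U.C.Z2 (S \ A) ∧ (U.C.Z2 (A \ S) → U.F.In A S)

def Ind (S : Set (Bool × γ)) : Prop :=
  U.SS S ∨ (U.SL S ∧ U.ind S) ∨ (U.SL Sᶜ ∧ U.spn Sᶜ)

variable {U}

theorem Lf_compl (S : Set (Bool × γ)) : Lf Sᶜ = (Lf S)ᶜ := rfl

theorem Rt_compl (S : Set (Bool × γ)) : Rt Sᶜ = (Rt S)ᶜ := rfl

theorem insert_le (S : Set (Bool × γ)) (e : Bool × γ) : U.C.Z2 (insert e S \ S) :=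
  Z2_finite ((finite_singleton e).subset (by
    intro y; simp only [mem_sdiff, mem_insert_iff, mem_singleton_iff]; tauto))

theorem spn_W {S : Set (Bool × γ)} (h : U.C.small (Lf S)) (hS : U.spn S) : U.C.W S := by
  obtain ⟨A, hA, h1, -⟩ := hS
  exact W_mono (U.hW A hA) h1 h

theorem spn_mono {S T : Set (Bool × γ)} (h : S ⊆ T) (hS : U.spn S) : U.spn T := by
  obtain ⟨A, hA, h1, h2⟩ := hS
  exact ⟨A, hA, le_trans' h1 (le_of_subset h), fun h3 =>
    U.F.sp_mono A S T h1 h3 h (h2 (le_trans' (le_of_subset h) h3))⟩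

theorem ind_mono {S T : Set (Bool × γ)} (h : S ⊆ T) (hs : U.C.small (Lf T)) (hT : U.ind T) :
    U.ind S := by
  rcases hT with hT | ⟨A, hA, h1, h2⟩
  · exact Or.inl fun hW => hT (W_mono hW (le_of_subset h) hs)
  · exact Or.inr ⟨A, hA, le_trans' (le_of_subset h) h1, fun h3 =>
      U.F.in_mono A S T h3 h1 h (h2 (le_trans' h3 (le_of_subset h)))⟩

theorem ind_or_spn {S : Set (Bool × γ)} (h : U.SL S) : U.ind S ∨ U.spn S := by
  have key : ∀ A ∈ U.𝓐, U.C.Z2 (A \ S) ∨ U.C.Z2 (S \ A) → U.ind S ∨ U.spn S := by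
    intro A hA hor
    by_cases h1 : U.C.Z2 (A \ S)
    · by_cases h2 : U.C.Z2 (S \ A)
      · rcases U.F.tot A S with h3 | h3
        · exact Or.inr ⟨A, hA, h1, fun _ => h3⟩
        · exact Or.inl (Or.inr ⟨A, hA, h2, fun _ => h3⟩)
      · exact Or.inr ⟨A, hA, h1, fun h => absurd h h2⟩
    · exact Or.inl (Or.inr ⟨A, hA, hor.resolve_left h1, fun h => absurd h h1⟩)
  rcases U.sat S S Subset.rfl h.1 h.2 with ⟨A, hA, h1⟩ | ⟨A, hA, h1⟩ | ⟨A, hA, h1, -⟩ | h1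
  · exact key A hA (Or.inl h1)
  · exact key A hA (Or.inr h1)
  · exact key A hA (Or.inr h1)
  · exact Or.inl (Or.inl h1.2)

theorem ind_insert_iff {S : Set (Bool × γ)} (h : U.SL S) {e : Bool × γ} (he : e ∉ S) :
    U.ind (insert e S) ↔ ¬ U.spn S := by
  have hle := insert_le (U := U) S e
  have hge : U.C.Z2 (S \ insert e S) := le_of_subset (subset_insert _ _)
  constructor
  · rintro hi ⟨A, hA, h1, h2⟩
    have hW : U.C.W (insert e S) :=
      W_mono (U.hW A hA) (le_trans' h1 hge) (small_of_le hle.1 h.1)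
    rcases hi with hi | ⟨A', hA', h3, h4⟩
    · exact hi hW
    obtain rfl := U.anti A hA A' hA' (le_trans' (le_trans' h1 hge) h3)
    have h5 := le_trans' hge h3
    exact (U.F.ins A S e h1 h5 he).1 (h4 (le_trans' h1 hge)) (h2 h5)
  · intro hs
    rcases (ind_or_spn h).resolve_right hs with hi | ⟨A, hA, h1, -⟩
    · exact Or.inl fun hW => hi (W_mono hW hle h.1)
    · refine Or.inr ⟨A, hA, le_trans' hle h1, fun h3 => ?_⟩
      have h4 := le_trans' h3 hle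
      exact (U.F.ins A S e h4 h1 he).2 fun h5 => hs ⟨A, hA, h4, fun _ => h5⟩

theorem cases4 (S : Set (Bool × γ)) : U.SS S ∨ U.SL S ∨ U.SL Sᶜ ∨ U.SS Sᶜ := by
  rcases U.C.small_or (Lf S) with h1 | h1 <;> rcases U.C.small_or (Rt S) with h2 | h2
  · exact Or.inl ⟨h1, h2⟩
  · exact Or.inr (Or.inl ⟨h1, h2⟩)
  · exact Or.inr (Or.inr (Or.inl ⟨h1, by rwa [Rt_compl, compl_compl]⟩))
  · exact Or.inr (Or.inr (Or.inr ⟨h1, h2⟩))

theorem Ind_SL {S : Set (Bool × γ)} (h : U.SL S) : U.Ind S ↔ U.ind S := by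
  refine ⟨?_, fun h' => Or.inr (Or.inl ⟨h, h'⟩)⟩
  rintro (h1 | h1 | h1)
  · exact absurd h.2 (not_small_compl h1.2)
  · exact h1.2
  · exact absurd h1.1.1 (not_small_compl h.1)

theorem Ind_LS {S : Set (Bool × γ)} (h : U.SL Sᶜ) : U.Ind S ↔ U.spn Sᶜ := by
  refine ⟨?_, fun h' => Or.inr (Or.inr ⟨h, h'⟩)⟩
  rintro (h1 | h1 | h1)
  · exact absurd h.1 (not_small_compl h1.1)
  · exact absurd h.1 (not_small_compl h1.1.1)
  · exact h1.2

theorem Spn_SL {S : Set (Bool × γ)} (h : U.SL S) : U.Ind Sᶜ ↔ U.spn S := by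
  rw [Ind_LS (by rwa [compl_compl]), compl_compl]

theorem Ind_LL {S : Set (Bool × γ)} (h : U.SS Sᶜ) : ¬ U.Ind S := by
  rintro (h1 | h1 | h1)
  · exact absurd h.1 (not_small_compl h1.1)
  · exact absurd h.1 (not_small_compl h1.1.1)
  · exact absurd h1.1.2 (not_small_compl h.2)

theorem SS_mono {S T : Set (Bool × γ)} (h : U.C.Z2 (S \ T)) (hT : U.SS T) : U.SS S :=
  ⟨small_of_le h.1 hT.1, small_of_le h.2 hT.2⟩

theorem SL_congr {S T : Set (Bool × γ)} (h : U.C.Z2 (S \ T)) (h' : U.C.Z2 (T \ S))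
    (hT : U.SL T) : U.SL S :=
  ⟨small_of_le h.1 hT.1, small_of_le (by rw [compl_sdiff_compl]; exact h'.2) hT.2⟩

theorem Ind_empty : U.Ind ∅ :=
  Or.inl ⟨U.C.small_of_Z (U.C.Z_finite finite_empty), U.C.small_of_Z (U.C.Z_finite finite_empty)⟩

theorem Ind_mono (S T : Set (Bool × γ)) (h : S ⊆ T) (hT : U.Ind T) : U.Ind S := by
  by_cases hS : U.SS S
  · exact Or.inl hS
  rcases hT with hT | ⟨h1, h2⟩ | ⟨h1, h2⟩
  · exact absurd (SS_mono (le_of_subset h) hT) hS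
  · have l := U.C.small_mono (Lf_mono h) h1.1
    have r := (U.C.small_or (Rt S)).resolve_left fun r => hS ⟨l, r⟩
    exact Or.inr (Or.inl ⟨⟨l, r⟩, ind_mono h h1.1 h2⟩)
  · have r : U.C.small (Rt S) :=
      U.C.small_mono (Rt_mono h) (by simpa only [Rt_compl, compl_compl] using h1.2)
    have l := (U.C.small_or (Lf S)).resolve_left fun l => hS ⟨l, r⟩
    exact Or.inr (Or.inr ⟨⟨l, by rwa [Rt_compl, compl_compl]⟩,
      spn_mono (compl_subset_compl.2 h) h2⟩)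

theorem Ind_tot (S : Set (Bool × γ)) : U.Ind S ∨ U.Ind Sᶜ := by
  rcases cases4 (U := U) S with h | h | h | h
  · exact Or.inl (Or.inl h)
  · rw [Ind_SL h, Spn_SL h]; exact ind_or_spn h
  · rw [Ind_LS h, Ind_SL h]; exact (ind_or_spn h).symm
  · exact Or.inr (Or.inl h)

theorem Ind_insert (S : Set (Bool × γ)) (e : Bool × γ) (he : e ∉ S) :
    U.Ind (insert e S) ↔ ¬ U.Ind Sᶜ := by
  have hle := insert_le (U := U) S e
  have hge : U.C.Z2 (S \ insert e S) := le_of_subset (subset_insert _ _)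
  rcases cases4 (U := U) S with h | h | h | h
  · exact iff_of_true (Or.inl (SS_mono hle h)) (Ind_LL (by rwa [compl_compl]))
  · rw [Ind_SL (SL_congr hle hge h), Spn_SL h, ind_insert_iff h he]
  · have hT : U.SL (insert e S)ᶜ :=
      SL_congr (by rwa [compl_sdiff_compl]) (by rwa [compl_sdiff_compl]) h
    have heq : Sᶜ = insert e (insert e S)ᶜ := by
      ext y; simp only [mem_compl_iff, mem_insert_iff]; grind
    rw [Ind_LS hT, Ind_SL h, heq, ind_insert_iff hT (by simp), not_not]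
  · refine iff_of_false (Ind_LL (SS_mono ?_ h)) (not_not.2 (Or.inl h))
    rwa [compl_sdiff_compl]

theorem key {I X : Set (Bool × γ)} (hIX : I ⊆ X) (hI : U.Ind I) (hX : U.Ind Xᶜ)
    (h1 : U.C.small (Lf I)) (h2 : U.C.small (Rt X)ᶜ) :
    ∃ B, I ⊆ B ∧ B ⊆ X ∧ U.Ind B ∧ U.Ind Bᶜ := by
  have hle : U.C.Z2 (I \ X) := le_of_subset hIX
  -- what `Ind I` says when a member of the antichain lies below `I`
  have low : ∀ A ∈ U.𝓐, U.C.Z2 (A \ I) → U.C.Z2 (I \ A) ∧ U.F.In A I := by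
    intro A hA h
    have hW : U.C.W I := W_mono (U.hW A hA) h h1
    rcases (Ind_SL ⟨hW.1, hW.2.1⟩).1 hI with hi | ⟨A', hA', h3, h4⟩
    · exact absurd hW hi
    obtain rfl := U.anti A hA A' hA' (le_trans' h h3)
    exact ⟨h3, h4 h⟩
  have up : ∀ A ∈ U.𝓐, U.C.Z2 (X \ A) → U.C.Z2 (A \ X) ∧ U.F.Sp A X := by
    intro A hA h
    obtain ⟨A', hA', h3, h4⟩ := (Spn_SL ⟨small_of_le h.1 (U.hW A hA).1, h2⟩).1 hX
    obtain rfl := U.anti A' hA' A hA (le_trans' h3 h)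
    exact ⟨h3, h4 h⟩
  have mid : ∃ A ∈ U.𝓐, U.C.Z2 (I \ A) ∧ U.C.Z2 (A \ X) := by
    rcases U.sat I X hIX h1 h2 with ⟨A, hA, h⟩ | ⟨A, hA, h⟩ | h | h
    · exact ⟨A, hA, (low A hA h).1, le_trans' h hle⟩
    · exact ⟨A, hA, le_trans' hle h, (up A hA h).1⟩
    · exact h
    · exact absurd (spn_W h.1 ((Spn_SL ⟨h.1, h2⟩).1 hX)) h.2
  obtain ⟨A, hA, a1, a2⟩ := mid
  obtain ⟨B, b1, b2, b3, b4, b5, b6⟩ := U.F.interp A I X hIX a1 a2
    (fun h => (low A hA h).2) (fun h => (up A hA h).2)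
  have hB : U.SL B := SL_congr b4 b3 ⟨(U.hW A hA).1, (U.hW A hA).2.1⟩
  exact ⟨B, b1, b2, (Ind_SL hB).2 (Or.inr ⟨A, hA, b4, fun _ => b6⟩),
    (Spn_SL hB).2 ⟨A, hA, b3, fun _ => b5⟩⟩

theorem Ind_interp (I X : Set (Bool × γ)) (hIX : I ⊆ X) (hI : U.Ind I) (hX : U.Ind Xᶜ) :
    ∃ B, I ⊆ B ∧ B ⊆ X ∧ U.Ind B ∧ U.Ind Bᶜ := by
  by_cases h : U.C.small (Lf I) ∧ U.C.small (Rt X)ᶜ
  · exact key hIX hI hX h.1 h.2
  have h' : U.C.small (Lf X)ᶜ ∧ U.C.small (Rt I) := by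
    by_cases h1 : U.C.small (Lf I)
    · have h2 : U.C.small (Rt X) := (U.C.small_or _).resolve_right fun h2 => h ⟨h1, h2⟩
      refine ⟨(U.C.small_or _).resolve_left fun h3 => ?_, U.C.small_mono (Rt_mono hIX) h2⟩
      exact Ind_LL (S := Xᶜ) (by rw [compl_compl]; exact ⟨h3, h2⟩) hX
    · have h2 : U.C.small (Lf I)ᶜ := (U.C.small_or _).resolve_left h1
      refine ⟨U.C.small_mono (compl_subset_compl.2 (Lf_mono hIX)) h2,
        (U.C.small_or _).resolve_right fun h3 => ?_⟩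
      exact Ind_LL (S := I) ⟨h2, h3⟩ hI
  obtain ⟨B, b1, b2, b3, b4⟩ := key (I := Xᶜ) (X := Iᶜ) (compl_subset_compl.2 hIX) hX
    (by rwa [compl_compl]) h'.1 (by rw [Rt_compl, compl_compl]; exact h'.2)
  exact ⟨Bᶜ, subset_compl_comm.1 b2, compl_subset_comm.1 b1, b4, by rwa [compl_compl]⟩

/-- The uniform matroid on two cells. -/
theorem exists_matroid (U : Setup γ) :
    ∃ M : Matroid (Bool × γ), M.E = univ ∧ (∀ B, M.IsBase B → M.IsBase Bᶜ) ∧
      ∀ B S, M.IsBase B → B ⊆ S → U.C.small (Lf S) →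
        U.C.small (Rt S)ᶜ ∧ U.C.ρ (Rt S)ᶜ < U.C.ρ (Lf S) := by
  obtain ⟨M, hE, hB⟩ := exists_uniform U.Ind Ind_empty Ind_mono Ind_tot Ind_insert Ind_interp
  refine ⟨M, hE, fun B h => ?_, fun B S h hBS hs => ?_⟩
  · rw [hB] at h ⊢
    rw [compl_compl]
    exact h.symm
  · have hS : U.Ind Sᶜ := Ind_mono _ _ (compl_subset_compl.2 hBS) ((hB B).1 h).2
    have hr : U.C.small (Rt S)ᶜ := (U.C.small_or _).resolve_left fun h3 =>
      Ind_LL (S := Sᶜ) (by rw [compl_compl]; exact ⟨hs, h3⟩) hS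
    exact (spn_W hs ((Spn_SL ⟨hs, hr⟩).1 hS)).2

end Setup

end Crest.Agent.R53
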